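import Vale.Agent.Lib.P069.Space

/-! Tails of functionals and reflexivity of `X`. -/

namespace Vale.Agent.Lib.P069

open Finset
open scoped Classical

lemma growth_contra {C η : ℝ} (hη : 0 < η) (h : ∀ k : ℕ, ((k : ℝ) * η) ^ 2 ≤ C * k) : False := by
  obtain ⟨k, hk⟩ := exists_nat_gt (C / η ^ 2)
  have hη2 : 0 < η ^ 2 := by positivity
  have h1 := h (k + 1)
  have hk' : C < ((k : ℝ) + 1) * η ^ 2 := by
    have := (div_lt_iff₀ hη2).1 hk
    nlinarith
  push_cast at h1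
  have hpos : (0 : ℝ) < (k : ℝ) + 1 := by positivity
  nlinarith [mul_pos hpos (sub_pos.2 hk')]

lemma exists_scaled {E : Type*} [NormedAddCommGroup E] [NormedSpace ℝ E] (φ : StrongDual ℝ E)
    {η : ℝ} {y : E} (h : η * ‖y‖ < |φ y|) : ∃ c : ℝ, ‖c • y‖ ≤ 1 ∧ η < φ (c • y) := by
  have hy : y ≠ 0 := by
    rintro rfl
    simp at h
  have hn : 0 < ‖y‖ := norm_pos_iff.2 hy
  have hnorm : ∀ c : ℝ, |c| = ‖y‖⁻¹ → ‖c • y‖ ≤ 1 := by
    intro c hc
    rw [norm_smul, Real.norm_eq_abs, hc, inv_mul_cancel₀ hn.ne']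
  rcases le_total 0 (φ y) with h0 | h0
  · refine ⟨‖y‖⁻¹, hnorm _ (abs_of_pos (inv_pos.2 hn)), ?_⟩
    rw [abs_of_nonneg h0] at h
    rw [map_smul, smul_eq_mul, inv_mul_eq_div, lt_div_iff₀ hn]
    exact h
  · refine ⟨-‖y‖⁻¹, hnorm _ (by rw [abs_neg, abs_of_pos (inv_pos.2 hn)]), ?_⟩
    rw [abs_of_nonpos h0] at h
    rw [map_smul, smul_eq_mul, neg_mul, inv_mul_eq_div, ← neg_div, lt_div_iff₀ hn]
    exact h

/-- High components of a functional are small. -/
lemma tail_high (φ : X) {η : ℝ} (hη : 0 < η) :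
    ∃ M : ℕ, ∀ y : Y, (∀ β ∈ lowComp M, fn y β = 0) → |φ y| ≤ η * ‖y‖ := by
  by_contra hcon
  push Not at hcon
  have hind : ∀ k : ℕ, ∃ (M : ℕ) (y : Y), (∀ β, β ∉ lowComp M → fn y β = 0) ∧ ‖y‖ ^ 2 ≤ k ∧
      (k : ℝ) * η ≤ φ y := by
    intro k
    induction k with
    | zero => exact ⟨0, 0, by simp, by simp, by simp⟩
    | succ k ih =>
      obtain ⟨M, y, h1, h2, h3⟩ := ih
      obtain ⟨y0, hy0, hy0'⟩ := hcon M
      obtain ⟨c, hc1, hc2⟩ := exists_scaled φ hy0'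
      set y' := c • y0 with hy'
      have hoff : ∀ β ∈ lowComp M, fn y' β = 0 := by
        intro β hβ
        rw [hy', fn_smul, Finsupp.smul_apply, hy0 β hβ, smul_zero]
      set M' := max M ((fn y').support.sup comp) with hM'
      refine ⟨M', y + y', ?_, ?_, ?_⟩
      · intro β hβ
        have hβ1 : β ∉ lowComp M := by
          rintro (h | h)
          · exact hβ (Or.inl h)
          · exact hβ (Or.inr (h.trans (le_max_left _ _)))
        have hβ2 : fn y' β = 0 := by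
          by_contra hne
          apply hβ
          right
          have : comp β ≤ (fn y').support.sup comp :=
            Finset.le_sup (f := comp) (Finsupp.mem_support_iff.2 hne)
          exact this.trans (le_max_right _ _)
        rw [fn_add, Finsupp.add_apply, h1 β hβ1, hβ2, add_zero]
      · have h4 := nrm_add_lowComp h1 hoff
        have h5 : nrm (fn y') ^ 2 ≤ 1 := by
          have : nrm (fn y') ≤ 1 := hc1
          have h0 := nrm_nonneg (fn y')
          nlinarith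
        have h6 : nrm (fn y) ^ 2 ≤ k := h2
        change nrm (fn y + fn y') ^ 2 ≤ _
        push_cast
        linarith
      · rw [map_add]
        push_cast
        linarith
  refine growth_contra (C := ‖φ‖ ^ 2) hη fun k => ?_
  obtain ⟨M, y, _, h2, h3⟩ := hind k
  have h4 : (k : ℝ) * η ≤ ‖φ‖ * ‖y‖ := h3.trans ((le_abs_self _).trans (φ.le_opNorm y))
  have h0 : 0 ≤ (k : ℝ) * η := by positivity
  calc ((k : ℝ) * η) ^ 2 ≤ (‖φ‖ * ‖y‖) ^ 2 := pow_le_pow_left₀ h0 h4 2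
    _ = ‖φ‖ ^ 2 * ‖y‖ ^ 2 := by ring
    _ ≤ ‖φ‖ ^ 2 * k := mul_le_mul_of_nonneg_left h2 (sq_nonneg _)

/-- Sum of squares of a weight. -/
noncomputable def sq2 (w : Fn) : ℝ := w.sum fun _ x => x ^ 2

lemma sq2_le_nrm {w : Fn} (hw : w [] = 0) : sq2 w ≤ nrm w ^ 2 :=
  sum_sq_le_nrm_sq w w.support (by simpa using hw)

lemma sq2_add {u v : Fn} (h : Disjoint u.support v.support) : sq2 (u + v) = sq2 u + sq2 v :=
  Finsupp.sum_add_index_of_disjoint h _

lemma sq2_zero : sq2 0 = 0 := by simp [sq2]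

/-- The seminorm on nodes of bounded length is controlled by the sum of squares. -/
lemma nrm_sq_le_height (w : Fn) (H : ℕ) (hw : ∀ β, w β ≠ 0 → β.length ≤ H) :
    nrm w ^ 2 ≤ (H + 1 : ℕ) * sq2 w := by
  refine nrm_sq_le fun S hS => ?_
  have h1 : ∀ σ ∈ S, (pot σ.2 w - pot σ.1 w) ^ 2 ≤
      (H + 1 : ℕ) * ∑ β ∈ segF σ.1 σ.2, w β ^ 2 := by
    intro σ hσ
    rw [seg_eq_sum w (hS.1 σ hσ), ← sum_filter_ne_zero]
    set D := (segF σ.1 σ.2).filter (fun β => w β ≠ 0) with hD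
    have hcard : D.card ≤ H + 1 := by
      have : D.card ≤ (range (H + 1)).card := by
        refine card_le_card_of_injOn List.length ?_ ?_
        · intro β hβ
          have hβ' := (mem_filter.1 hβ).2
          simp only [coe_range, Set.mem_Iio]
          exact Nat.lt_succ_of_le (hw β hβ')
        · intro β hβ β' hβ' he
          have h1 := (mem_segF.1 (mem_filter.1 hβ).1).2.1
          have h2 := (mem_segF.1 (mem_filter.1 hβ').1).2.1
          exact (List.suffix_of_suffix_length_le h1 h2 he.le).eq_of_length he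
      simpa using this
    calc (∑ β ∈ D, w β) ^ 2 ≤ (D.card : ℝ) * ∑ β ∈ D, w β ^ 2 := sq_sum_le_card_mul_sum_sq
      _ ≤ (H + 1 : ℕ) * ∑ β ∈ D, w β ^ 2 :=
        mul_le_mul_of_nonneg_right (by exact_mod_cast hcard) (sum_nonneg fun _ _ => sq_nonneg _)
      _ ≤ (H + 1 : ℕ) * ∑ β ∈ segF σ.1 σ.2, w β ^ 2 := by
        refine mul_le_mul_of_nonneg_left ?_ (by positivity)
        exact sum_le_sum_of_subset_of_nonneg (filter_subset _ _) fun _ _ _ => sq_nonneg _
  have h2 := sum_seg_le hS (fun β => w β ^ 2) (fun _ => sq_nonneg _) w.support (by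
    intro β hβ
    rw [Finsupp.mem_support_iff]
    intro h0
    apply hβ
    simp [h0])
  calc val w S ≤ ∑ σ ∈ S, (H + 1 : ℕ) * ∑ β ∈ segF σ.1 σ.2, w β ^ 2 := sum_le_sum h1
    _ = (H + 1 : ℕ) * ∑ σ ∈ S, ∑ β ∈ segF σ.1 σ.2, w β ^ 2 := by rw [mul_sum]
    _ ≤ (H + 1 : ℕ) * sq2 w := mul_le_mul_of_nonneg_left h2 (by positivity)

lemma length_le_of_low {M : ℕ} (y : Y) (hy : ∀ β, β ∉ lowComp M → fn y β = 0) (β : List ℕ)
    (hβ : fn y β ≠ 0) : β.length ≤ M + 1 := by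
  have h1 := fn_mem y hβ
  have h2 : β ∈ lowComp M := by
    by_contra h
    exact hβ (hy β h)
  rcases h2 with h | h
  · exact absurd h h1.1
  · exact h1.2.trans (Nat.succ_le_succ h)

/-- A functional restricted to low components has small tails. -/
lemma tail_low (φ : X) {η : ℝ} (hη : 0 < η) (M : ℕ) :
    ∃ A : Finset (List ℕ), IsInit (A : Set (List ℕ)) ∧
      ∀ y : Y, (∀ β, β ∉ lowComp M → fn y β = 0) → (∀ β ∈ A, fn y β = 0) → |φ y| ≤ η * ‖y‖ := by
  by_contra hcon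
  push Not at hcon
  have hind : ∀ k : ℕ, ∃ (A : Finset (List ℕ)) (y : Y), IsInit (A : Set (List ℕ)) ∧
      (∀ β, β ∉ lowComp M → fn y β = 0) ∧ (∀ β, β ∉ A → fn y β = 0) ∧ sq2 (fn y) ≤ k ∧
      (k : ℝ) * η ≤ φ y := by
    intro k
    induction k with
    | zero =>
      refine ⟨initClosure ∅, 0, initClosure_init _, by simp, by simp, ?_, by simp⟩
      simp [sq2_zero]
    | succ k ih =>
      obtain ⟨A, y, hA, h1, h2, h3, h4⟩ := ih
      obtain ⟨y0, hy0a, hy0b, hy0c⟩ := hcon A hA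
      obtain ⟨c, hc1, hc2⟩ := exists_scaled φ hy0c
      set y' := c • y0 with hy'
      have hlow : ∀ β, β ∉ lowComp M → fn y' β = 0 := by
        intro β hβ
        rw [hy', fn_smul, Finsupp.smul_apply, hy0a β hβ, smul_zero]
      have hoff : ∀ β ∈ A, fn y' β = 0 := by
        intro β hβ
        rw [hy', fn_smul, Finsupp.smul_apply, hy0b β hβ, smul_zero]
      set A' := initClosure (A ∪ (fn y').support) with hA'
      have hsub : A ∪ (fn y').support ⊆ A' := subset_initClosure _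
      refine ⟨A', y + y', initClosure_init _, ?_, ?_, ?_, ?_⟩
      · intro β hβ
        rw [fn_add, Finsupp.add_apply, h1 β hβ, hlow β hβ, add_zero]
      · intro β hβ
        have e1 : β ∉ A := fun h => hβ (hsub (mem_union_left _ h))
        have e2 : fn y' β = 0 := by
          by_contra hne
          exact hβ (hsub (mem_union_right _ (Finsupp.mem_support_iff.2 hne)))
        rw [fn_add, Finsupp.add_apply, h2 β e1, e2, add_zero]
      · have hdisj : Disjoint (fn y).support (fn y').support := by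
          rw [Finset.disjoint_left]
          intro β hβ hβ'
          have hβA : β ∈ A := by
            by_contra h
            exact (Finsupp.mem_support_iff.1 hβ) (h2 β h)
          exact (Finsupp.mem_support_iff.1 hβ') (hoff β hβA)
        rw [fn_add, sq2_add hdisj]
        have h5 : sq2 (fn y') ≤ 1 := by
          refine (sq2_le_nrm (fn_nil y')).trans ?_
          have h6 : nrm (fn y') ≤ 1 := hc1
          have h0 := nrm_nonneg (fn y')
          nlinarith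
        push_cast
        linarith
      · rw [map_add]
        push_cast
        linarith
  refine growth_contra (C := ‖φ‖ ^ 2 * (M + 1 + 1 : ℕ)) hη fun k => ?_
  obtain ⟨A, y, _, h1, _, h3, h4⟩ := hind k
  have h5 : (k : ℝ) * η ≤ ‖φ‖ * ‖y‖ := h4.trans ((le_abs_self _).trans (φ.le_opNorm y))
  have h0 : 0 ≤ (k : ℝ) * η := by positivity
  have h6 : ‖y‖ ^ 2 ≤ (M + 1 + 1 : ℕ) * k := by
    refine (nrm_sq_le_height (fn y) (M + 1) (length_le_of_low y h1)).trans ?_
    exact mul_le_mul_of_nonneg_left h3 (by positivity)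
  calc ((k : ℝ) * η) ^ 2 ≤ (‖φ‖ * ‖y‖) ^ 2 := pow_le_pow_left₀ h0 h5 2
    _ = ‖φ‖ ^ 2 * ‖y‖ ^ 2 := by ring
    _ ≤ ‖φ‖ ^ 2 * ((M + 1 + 1 : ℕ) * k) := mul_le_mul_of_nonneg_left h6 (sq_nonneg _)
    _ = ‖φ‖ ^ 2 * (M + 1 + 1 : ℕ) * k := by ring

/-- The tail property of functionals. -/
theorem tail (φ : X) {η : ℝ} (hη : 0 < η) :
    ∃ A : Finset (List ℕ), IsInit (A : Set (List ℕ)) ∧
      ∀ y : Y, (∀ β ∈ A, fn y β = 0) → |φ y| ≤ η * ‖y‖ := by
  obtain ⟨M, hM⟩ := tail_high φ (half_pos hη)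
  obtain ⟨A, hA, hA'⟩ := tail_low φ (half_pos hη) M
  refine ⟨A, hA, fun y hy => ?_⟩
  have hinit := lowComp_init M
  set y1 := resY (lowComp M) hinit y with hy1
  set y2 := offY (lowComp M) hinit y with hy2
  have e : y = y1 + y2 := (resY_add_offY _ hinit y).symm
  have b1 : |φ y1| ≤ η / 2 * ‖y1‖ := by
    refine hA' y1 ?_ ?_
    · intro β hβ
      rw [hy1, fn_resY, res_apply_not_mem _ hβ]
    · intro β hβ
      rw [hy1, fn_resY]
      by_cases h : β ∈ lowComp M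
      · rw [res_apply_mem _ h, hy β hβ]
      · rw [res_apply_not_mem _ h]
  have b2 : |φ y2| ≤ η / 2 * ‖y2‖ := by
    refine hM y2 ?_
    intro β hβ
    rw [hy2, fn_offY, off_apply_mem _ hβ]
  have n1 : ‖y1‖ ≤ ‖y‖ := norm_resY_le _ _ _
  have n2 : ‖y2‖ ≤ ‖y‖ := norm_offY_le _ _ _
  have hη2 : 0 < η / 2 := half_pos hη
  calc |φ y| = |φ y1 + φ y2| := by rw [← map_add, ← e]
    _ ≤ |φ y1| + |φ y2| := abs_add_le _ _
    _ ≤ η / 2 * ‖y1‖ + η / 2 * ‖y2‖ := add_le_add b1 b2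
    _ ≤ η / 2 * ‖y‖ + η / 2 * ‖y‖ :=
      add_le_add (mul_le_mul_of_nonneg_left n1 hη2.le) (mul_le_mul_of_nonneg_left n2 hη2.le)
    _ = η * ‖y‖ := by ring

section refl

variable {A A' : Set (List ℕ)}

lemma resY_resY_of_subset (hA : IsInit A) (hA' : IsInit A') (h : A ⊆ A') (y : Y) :
    resY A' hA' (resY A hA y) = resY A hA y := by
  apply fn_inj
  rw [fn_resY, fn_resY]
  ext β
  by_cases hβ : β ∈ A
  · simp [hβ, h hβ]
  · by_cases hβ' : β ∈ A' <;> simp [hβ, hβ']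

lemma resY_resY_of_subset' (hA : IsInit A) (hA' : IsInit A') (h : A ⊆ A') (y : Y) :
    resY A hA (resY A' hA' y) = resY A hA y := by
  apply fn_inj
  rw [fn_resY, fn_resY, fn_resY]
  ext β
  by_cases hβ : β ∈ A
  · simp [hβ, h hβ]
  · simp [hβ]

/-- Upper square estimate for functionals separated by an initial set. -/
lemma norm_add_sq_le (hA : IsInit A) {ψ φ : X} (hψ : ∀ y, ψ (resY A hA y) = ψ y)
    (hφ : ∀ y, φ (resY A hA y) = 0) : ‖ψ + φ‖ ^ 2 ≤ ‖ψ‖ ^ 2 + ‖φ‖ ^ 2 := by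
  set C := Real.sqrt (‖ψ‖ ^ 2 + ‖φ‖ ^ 2) with hC
  have hC0 : 0 ≤ C := Real.sqrt_nonneg _
  have hC2 : C ^ 2 = ‖ψ‖ ^ 2 + ‖φ‖ ^ 2 := Real.sq_sqrt (by positivity)
  have hbd : ‖ψ + φ‖ ≤ C := by
    refine ContinuousLinearMap.opNorm_le_bound _ hC0 fun y => ?_
    have e : (ψ + φ) y = ψ (resY A hA y) + φ (offY A hA y) := by
      have h1 : φ y = φ (offY A hA y) := by
        conv_lhs => rw [← resY_add_offY A hA y, map_add, hφ, zero_add]
      rw [add_apply, hψ, h1]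
    have h1 : |ψ (resY A hA y)| ≤ ‖ψ‖ * ‖resY A hA y‖ := ψ.le_opNorm _
    have h2 : |φ (offY A hA y)| ≤ ‖φ‖ * ‖offY A hA y‖ := φ.le_opNorm _
    have h3 := block_Y A hA y
    rw [Real.norm_eq_abs, e]
    set a := ‖ψ‖ with ha
    set b := ‖resY A hA y‖ with hb
    set c := ‖φ‖ with hc
    set d := ‖offY A hA y‖ with hd
    have ha0 : 0 ≤ a := norm_nonneg _
    have hb0 : 0 ≤ b := norm_nonneg _
    have hc0 : 0 ≤ c := norm_nonneg _
    have hd0 : 0 ≤ d := norm_nonneg _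
    have h4 : |ψ (resY A hA y) + φ (offY A hA y)| ≤ a * b + c * d :=
      (abs_add_le _ _).trans (add_le_add h1 h2)
    refine h4.trans ?_
    refine abs_le_of_sq_le_sq' ?_ (mul_nonneg hC0 (norm_nonneg y)) |>.2
    rw [mul_pow, hC2]
    have h5 : (a ^ 2 + c ^ 2) * (b ^ 2 + d ^ 2) ≤ (a ^ 2 + c ^ 2) * ‖y‖ ^ 2 :=
      mul_le_mul_of_nonneg_left h3 (by positivity)
    nlinarith [sq_nonneg (a * d - c * b)]
  calc ‖ψ + φ‖ ^ 2 ≤ C ^ 2 := pow_le_pow_left₀ (norm_nonneg _) hbd 2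
    _ = _ := hC2

end refl

/-- Functionals on `X` have small tails. -/
lemma dual_tail (f : StrongDual ℝ X) {ε : ℝ} (hε : 0 < ε) :
    ∃ (A : Finset (List ℕ)) (hA : IsInit (A : Set (List ℕ))), ∀ φ : X,
      (∀ y, φ (resY A hA y) = 0) → |f φ| ≤ ε * ‖φ‖ := by
  by_contra hcon
  push Not at hcon
  have hind : ∀ k : ℕ, ∃ (A : Finset (List ℕ)) (hA : IsInit (A : Set (List ℕ))) (ψ : X),
      (∀ y, ψ (resY A hA y) = ψ y) ∧ ‖ψ‖ ^ 2 ≤ k ∧ (k : ℝ) * (ε / 2) ≤ f ψ := by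
    intro k
    induction k with
    | zero =>
      exact ⟨initClosure ∅, initClosure_init _, 0, by simp, by simp, by simp⟩
    | succ k ih =>
      obtain ⟨A, hA, ψ, h1, h2, h3⟩ := ih
      obtain ⟨φ0, hφ0, hφ0'⟩ := hcon A hA
      obtain ⟨c, hc1, hc2⟩ := exists_scaled f hφ0'
      set φ := c • φ0 with hφ
      have hφoff : ∀ y, φ (resY A hA y) = 0 := by
        intro y
        rw [hφ, smul_apply, hφ0, smul_zero]
      set η := ε / (2 * (‖f‖ + 1)) with hη
      have hfpos : 0 < ‖f‖ + 1 := by positivity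
      have hηpos : 0 < η := by positivity
      obtain ⟨A1, hA1, hA1'⟩ := tail φ hηpos
      set B := initClosure ((A ∪ A1 : Finset (List ℕ))) with hB
      have hBinit : IsInit (B : Set (List ℕ)) := initClosure_init _
      have hsub : ∀ β, β ∈ A ∪ A1 → β ∈ B := fun β hβ => subset_initClosure _ hβ
      have hAB : (A : Set (List ℕ)) ⊆ B := fun β hβ => hsub β (mem_union_left _ hβ)
      have hA1B : ∀ β ∈ A1, β ∈ B := fun β hβ => hsub β (mem_union_right _ hβ)
      set φ' : X := φ.comp (resY B hBinit) with hφ'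
      have hn1 : ‖φ'‖ ≤ 1 := by
        calc ‖φ'‖ ≤ ‖φ‖ * ‖resY B hBinit‖ := ContinuousLinearMap.opNorm_comp_le _ _
          _ ≤ 1 * 1 := mul_le_mul hc1 (opNorm_resY_le _ _) (norm_nonneg _) zero_le_one
          _ = 1 := one_mul 1
      have hn2 : ‖φ - φ'‖ ≤ η := by
        refine ContinuousLinearMap.opNorm_le_bound _ hηpos.le fun y => ?_
        have e : (φ - φ') y = φ (offY B hBinit y) := by
          rw [sub_apply, hφ']
          simp only [offY, map_sub, ContinuousLinearMap.comp_apply]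
        rw [e, Real.norm_eq_abs]
        refine (hA1' _ ?_).trans ?_
        · intro β hβ
          rw [fn_offY, off_apply_mem _ (show β ∈ (B : Set (List ℕ)) from hA1B β hβ)]
        · exact mul_le_mul_of_nonneg_left (norm_offY_le _ _ _) hηpos.le
      have hval : ε / 2 ≤ f φ' := by
        have e1 : f φ' = f φ - f (φ - φ') := by
          rw [map_sub]
          ring
        have e2 : |f (φ - φ')| ≤ ‖f‖ * ‖φ - φ'‖ := f.le_opNorm _
        have e3 : ‖f‖ * ‖φ - φ'‖ ≤ ‖f‖ * η :=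
          mul_le_mul_of_nonneg_left hn2 (ContinuousLinearMap.opNorm_nonneg f)
        have e4 : ‖f‖ * η ≤ ε / 2 := by
          rw [hη, mul_div_assoc', div_le_div_iff₀ (by positivity) (by norm_num)]
          nlinarith [norm_nonneg f]
        have e5 := le_abs_self (f (φ - φ'))
        rw [e1]
        linarith
      have hφ'off : ∀ y, φ' (resY A hA y) = 0 := by
        intro y
        rw [hφ', ContinuousLinearMap.comp_apply, resY_resY_of_subset hA hBinit hAB, hφoff]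
      refine ⟨B, hBinit, ψ + φ', ?_, ?_, ?_⟩
      · intro y
        rw [add_apply, add_apply]
        congr 1
        · rw [← h1 (resY B hBinit y), resY_resY_of_subset' hA hBinit hAB, h1]
        · rw [hφ', ContinuousLinearMap.comp_apply, ContinuousLinearMap.comp_apply,
            resY_resY_of_subset hBinit hBinit (subset_refl _)]
      · have := norm_add_sq_le hA h1 hφ'off
        have h4 : ‖φ'‖ ^ 2 ≤ 1 := by
          have h0 := norm_nonneg φ'
          nlinarith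
        push_cast
        linarith
      · rw [map_add]
        push_cast
        linarith
  have hη : 0 < ε / 2 := half_pos hε
  refine growth_contra (C := ‖f‖ ^ 2) hη fun k => ?_
  obtain ⟨A, hA, ψ, _, h2, h3⟩ := hind k
  have h4 : (k : ℝ) * (ε / 2) ≤ ‖f‖ * ‖ψ‖ := h3.trans ((le_abs_self _).trans (f.le_opNorm ψ))
  have h0 : 0 ≤ (k : ℝ) * (ε / 2) := by positivity
  calc ((k : ℝ) * (ε / 2)) ^ 2 ≤ (‖f‖ * ‖ψ‖) ^ 2 := pow_le_pow_left₀ h0 h4 2
    _ = ‖f‖ ^ 2 * ‖ψ‖ ^ 2 := by ring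
    _ ≤ ‖f‖ ^ 2 * k := mul_le_mul_of_nonneg_left h2 (sq_nonneg _)

/-- Evaluations at elements of `Y` are dense in the dual of `X`. -/
lemma dense_eval (f : StrongDual ℝ X) {ε : ℝ} (hε : 0 < ε) :
    ∃ y : Y, ∀ φ : X, |f φ - φ y| ≤ ε * ‖φ‖ := by
  obtain ⟨A, hA, hA'⟩ := dual_tail f (half_pos hε)
  refine ⟨∑ α ∈ A, f (coordX α) • eY α, fun φ => ?_⟩
  set φ' : X := φ.comp (resY A hA) with hφ'
  have e1 : φ' = ∑ α ∈ A, φ (eY α) • coordX α := by
    ext u
    rw [hφ', ContinuousLinearMap.comp_apply, _root_.sum_apply]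
    have h1 : ∀ β, β ∉ A → fn (resY A hA u) β = 0 := by
      intro β hβ
      rw [fn_resY, res_apply_not_mem _ (show β ∉ (A : Set (List ℕ)) from hβ)]
    conv_lhs => rw [y_eq_sum (resY A hA u) A h1, map_sum]
    refine sum_congr rfl fun α hα => ?_
    rw [map_smul, fn_resY, res_apply_mem _ (show α ∈ (A : Set (List ℕ)) from hα),
      smul_apply, coordX_apply, smul_eq_mul, smul_eq_mul, mul_comm]
  have e2 : f φ' = φ (∑ α ∈ A, f (coordX α) • eY α) := by
    rw [e1, map_sum, map_sum]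
    refine sum_congr rfl fun α _ => ?_
    rw [map_smul, map_smul, smul_eq_mul, smul_eq_mul, mul_comm]
  have hoff : ∀ y, (φ - φ') (resY A hA y) = 0 := by
    intro y
    rw [sub_apply, hφ', ContinuousLinearMap.comp_apply,
      resY_resY_of_subset hA hA (subset_refl _), sub_self]
  have h3 := hA' (φ - φ') hoff
  have h4 : ‖φ'‖ ≤ ‖φ‖ := by
    calc ‖φ'‖ ≤ ‖φ‖ * ‖resY A hA‖ := ContinuousLinearMap.opNorm_comp_le _ _
      _ ≤ ‖φ‖ * 1 := mul_le_mul_of_nonneg_left (opNorm_resY_le _ _) (norm_nonneg _)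
      _ = ‖φ‖ := mul_one _
  have h5 : ‖φ - φ'‖ ≤ 2 * ‖φ‖ := by
    calc ‖φ - φ'‖ ≤ ‖φ‖ + ‖φ'‖ := norm_sub_le _ _
      _ ≤ 2 * ‖φ‖ := by linarith
  rw [← e2, ← map_sub]
  calc |f (φ - φ')| ≤ ε / 2 * ‖φ - φ'‖ := h3
    _ ≤ ε / 2 * (2 * ‖φ‖) := mul_le_mul_of_nonneg_left h5 (half_pos hε).le
    _ = ε * ‖φ‖ := by ring

/-- The space `X` is reflexive. -/
theorem reflexive_X : Function.Surjective (NormedSpace.inclusionInDoubleDual ℝ X) := by
  intro Ψ
  set J := NormedSpace.inclusionInDoubleDual ℝ Y with hJ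
  set φ : X := Ψ.comp J with hφ
  refine ⟨φ, ?_⟩
  ext f
  change f φ = Ψ f
  by_contra hne
  have hd : 0 < |f φ - Ψ f| := abs_pos.2 (sub_ne_zero.2 hne)
  set T := ‖φ‖ + ‖Ψ‖ + 1 with hT
  have hTpos : 0 < T := by positivity
  set ε := |f φ - Ψ f| / (2 * T) with hε
  have hεpos : 0 < ε := by positivity
  obtain ⟨y, hy⟩ := dense_eval f hεpos
  have h1 : ‖f - J y‖ ≤ ε := by
    refine ContinuousLinearMap.opNorm_le_bound _ hεpos.le fun φ' => ?_
    have := hy φ'
    rwa [sub_apply, Real.norm_eq_abs]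
  have h2 : φ y = Ψ (J y) := rfl
  have h3 : |Ψ f - Ψ (J y)| ≤ ‖Ψ‖ * ε := by
    rw [← map_sub]
    exact (Ψ.le_opNorm _).trans (mul_le_mul_of_nonneg_left h1 (norm_nonneg _))
  have h4 := hy φ
  have h5 : |f φ - Ψ f| ≤ ε * ‖φ‖ + ‖Ψ‖ * ε := by
    calc |f φ - Ψ f| = |(f φ - φ y) + (Ψ (J y) - Ψ f)| := by rw [h2]; ring_nf
      _ ≤ |f φ - φ y| + |Ψ (J y) - Ψ f| := abs_add_le _ _
      _ ≤ ε * ‖φ‖ + ‖Ψ‖ * ε := add_le_add h4 (by rw [abs_sub_comm]; exact h3)
  have h6 : ε * T = |f φ - Ψ f| / 2 := by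
    rw [hε]
    field_simp
  have h7 : ε * ‖φ‖ + ‖Ψ‖ * ε ≤ ε * T := by
    rw [hT]
    nlinarith
  linarith

end Vale.Agent.Lib.P069
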