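import Vale.Agent.Lib.P069.Defs
import Vale.Agent.Lib.P069.Tail

/-! The asymptotic midpoint uniform convexity of `X`. -/

namespace Vale.Agent.Lib.P069

open Finset
open scoped Classical

/-- The functionals vanishing on a finite set of unit vectors. -/
noncomputable def FA (A : Finset (List ℕ)) : Submodule ℝ X where
  carrier := {g | ∀ α ∈ A, g (eY α) = 0}
  add_mem' := by
    intro a b ha hb α hα
    rw [add_apply, ha α hα, hb α hα, add_zero]
  zero_mem' := by
    intro α _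
    rfl
  smul_mem' := by
    intro c a ha α hα
    rw [smul_apply, ha α hα, smul_zero]

lemma mem_FA {A : Finset (List ℕ)} {g : X} : g ∈ FA A ↔ ∀ α ∈ A, g (eY α) = 0 := Iff.rfl

lemma FA_closed (A : Finset (List ℕ)) : IsClosed (FA A : Set X) := by
  have : (FA A : Set X) = ⋂ α ∈ A, {g : X | g (eY α) = 0} := by
    ext g
    simp [mem_FA]
  rw [this]
  refine isClosed_biInter fun α _ => isClosed_eq ?_ continuous_const
  exact (NormedSpace.inclusionInDoubleDual ℝ Y (eY α)).continuous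

lemma FA_fin (A : Finset (List ℕ)) : FiniteDimensional ℝ (X ⧸ FA A) := by
  let L : X →ₗ[ℝ] (↥A → ℝ) :=
    { toFun := fun g α => g (eY α.1)
      map_add' := fun _ _ => rfl
      map_smul' := fun _ _ => rfl }
  have hker : FA A = LinearMap.ker L := by
    ext g
    rw [mem_FA, LinearMap.mem_ker]
    constructor
    · intro h
      funext α
      exact h α.1 α.2
    · intro h α hα
      exact congrFun h ⟨α, hα⟩
  rw [hker]
  exact (LinearMap.quotKerEquivRange L).symm.finiteDimensional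

lemma apply_eq_zero_of_FA {A : Finset (List ℕ)} {g : X} (hg : g ∈ FA A) {y : Y}
    (hy : ∀ β, β ∉ A → fn y β = 0) : g y = 0 := by
  rw [y_eq_sum y A hy, map_sum]
  refine sum_eq_zero fun α hα => ?_
  rw [map_smul, hg α hα, smul_zero]

lemma singleton_mem_G (n : ℕ) : [n] ∈ G :=
  ⟨List.cons_ne_nil _ _, by simp [comp]⟩

lemma fn_eY_apply_ne {α β : List ℕ} (h : α ≠ β) : fn (eY α) β = 0 := by
  unfold eY
  rw [fn_proj]
  by_cases hβ : β ∈ G
  · rw [res_apply_mem _ hβ, Finsupp.single_apply, if_neg h]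
  · rw [res_apply_not_mem _ hβ]

/-- Each space `FA A` contains a functional of norm one. -/
lemma FA_exists_unit (A : Finset (List ℕ)) : ∃ g : X, g ∈ FA A ∧ ‖g‖ = 1 := by
  set n := A.sup comp + 1 with hndef
  have hn : [n] ∉ A := by
    intro h
    have h1 : comp [n] ≤ A.sup comp := Finset.le_sup (f := comp) h
    have h2 : comp [n] = n := rfl
    omega
  refine ⟨coordX [n], ?_, norm_coordX (singleton_mem_G n)⟩
  intro α hα
  rw [coordX_apply]
  exact fn_eY_apply_ne (fun he => hn (he ▸ hα))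

private lemma aux_num1 (t : ℝ) : 1 + 3 * (t / 4) ^ 2 ≤ (1 + 3 * t ^ 2 / 32) ^ 2 := by
  nlinarith [sq_nonneg (3 * t ^ 2 / 32)]

/-- The core estimate of the midpoint modulus. -/
lemma amuc_core (φ : X) (hφ : ‖φ‖ = 1) {t : ℝ} (ht : 0 < t) :
    ∃ A : Finset (List ℕ), ∀ g : X, g ∈ FA A → ‖g‖ = 1 →
      1 + t ^ 2 / (64 + 6 * t ^ 2) ≤ max ‖φ + t • g‖ ‖φ - t • g‖ := by
  set s := t / 4 with hs
  have hs0 : 0 ≤ s := by positivity
  set T := 1 + t / 4 + t ^ 2 / 8 with hT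
  have hTpos : 0 < T := by positivity
  set η := t ^ 2 / (64 * T) with hη
  have hηpos : 0 < η := by positivity
  have hηT : η * T = t ^ 2 / 64 := by
    rw [hη]
    field_simp
  obtain ⟨z, hz1, hz2⟩ := exists_near_norm φ hηpos
  obtain ⟨A0, _, hA0'⟩ := tail φ hηpos
  set A := initClosure (A0 ∪ (fn z).support) with hAdef
  have hA : IsInit (A : Set (List ℕ)) := initClosure_init _
  have hsub : A0 ∪ (fn z).support ⊆ A := subset_initClosure _
  refine ⟨A, fun g hg hg1 => ?_⟩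
  obtain ⟨w0, hw01, hw02⟩ := exists_near_norm g hηpos
  set w := offY (A : Set (List ℕ)) hA w0 with hw
  have hwn : ‖w‖ ≤ 1 := (norm_offY_le _ _ _).trans hw01
  have hgw : g w = g w0 := by
    have h0 : g (resY (A : Set (List ℕ)) hA w0) = 0 := by
      refine apply_eq_zero_of_FA hg fun β hβ => ?_
      rw [fn_resY, res_apply_not_mem _ (show β ∉ (A : Set (List ℕ)) from hβ)]
    rw [hw]
    unfold offY
    rw [map_sub, h0, sub_zero]
  have hz' : ∀ β, β ∉ (A : Set (List ℕ)) → fn z β = 0 := by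
    intro β hβ
    by_contra hne
    exact hβ (hsub (mem_union_right _ (Finsupp.mem_support_iff.2 hne)))
  have hw' : ∀ β ∈ (A : Set (List ℕ)), fn w β = 0 := by
    intro β hβ
    rw [hw, fn_offY, off_apply_mem _ hβ]
  obtain ⟨e, v, he, hv1, hv2, hv3, hv4⟩ :=
    select hA hz' hw' ((g : Y →ₗ[ℝ] ℝ).comp proj) hs0
  have hvG : ∀ β, v β ≠ 0 → β ∈ G := fun β hβ => fn_mem w (hv1 β hβ)
  set vY := mkY v hvG with hvY
  have hfvY : fn vY = v := rfl
  have hgv : ((g : Y →ₗ[ℝ] ℝ).comp proj) v = g vY := by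
    change g (proj v) = g vY
    rw [← hfvY, proj_fn]
  have hgw' : ((g : Y →ₗ[ℝ] ℝ).comp proj) (fn w) = g w := by
    change g (proj (fn w)) = g w
    rw [proj_fn]
  rw [hgw', hgv, hgw] at hv3
  have hvn : ‖vY‖ ≤ 1 := hv2.trans hwn
  set ζ := z + (e * s) • vY with hζ
  have hζ2 : ‖ζ‖ ^ 2 ≤ 1 + 3 * s ^ 2 := by
    have h1 : ‖ζ‖ ^ 2 ≤ nrm (fn z) ^ 2 + 3 * s ^ 2 * nrm (fn w) ^ 2 := hv4
    have h2 : nrm (fn z) ^ 2 ≤ 1 := pow_le_one₀ (nrm_nonneg _) hz1
    have h3 : nrm (fn w) ^ 2 ≤ 1 := pow_le_one₀ (nrm_nonneg _) hwn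
    have h4 : 3 * s ^ 2 * nrm (fn w) ^ 2 ≤ 3 * s ^ 2 * 1 :=
      mul_le_mul_of_nonneg_left h3 (by positivity)
    linarith
  have hζn : ‖ζ‖ ≤ 1 + 3 * t ^ 2 / 32 := by
    refine abs_le_of_sq_le_sq' ?_ (by positivity) |>.2
    refine hζ2.trans ?_
    rw [hs]
    exact aux_num1 t
  have hA0off : ∀ β ∈ A0, fn vY β = 0 := by
    intro β hβ
    by_contra hne
    exact hv1 β hne (hw' β (hsub (mem_union_left _ hβ)))
  have hφv : |φ vY| ≤ η := by
    refine (hA0' vY hA0off).trans ?_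
    calc η * ‖vY‖ ≤ η * 1 := mul_le_mul_of_nonneg_left hvn hηpos.le
      _ = η := mul_one η
  have hgz : g z = 0 := apply_eq_zero_of_FA hg hz'
  have hee : e * e = 1 := by
    rcases he with h | h <;> rw [h] <;> norm_num
  have hpair : (φ + (e * t) • g) ζ = φ z + (e * s) * φ vY + (t * s) * g vY := by
    have e1 : (φ + (e * t) • g) ζ = φ ζ + (e * t) * g ζ := by
      rw [add_apply, smul_apply, smul_eq_mul]
    have e2 : φ ζ = φ z + (e * s) * φ vY := by
      rw [hζ, map_add, map_smul, smul_eq_mul]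
    have e3 : g ζ = g z + (e * s) * g vY := by
      rw [hζ, map_add, map_smul, smul_eq_mul]
    rw [e1, e2, e3, hgz]
    linear_combination (t * s * g vY) * hee
  have hes : |e * s * φ vY| ≤ s * η := by
    rw [abs_mul, abs_mul, abs_of_sign he, one_mul, abs_of_nonneg hs0]
    exact mul_le_mul_of_nonneg_left hφv hs0
  have hgvY : (1 - η) / 2 ≤ g vY := by
    have h1 : ‖g‖ - η ≤ g w0 := hw02
    rw [hg1] at h1
    linarith
  have hts : 0 ≤ t * s := by positivity
  have hlow : 1 + 7 * t ^ 2 / 64 ≤ (φ + (e * t) • g) ζ := by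
    rw [hpair]
    have h1 : 1 - η ≤ φ z := by
      rw [hφ] at hz2
      exact hz2
    have h2 := (abs_le.1 hes).1
    have h3 : t * s * ((1 - η) / 2) ≤ t * s * g vY := mul_le_mul_of_nonneg_left hgvY hts
    have h4 : t * s = t ^ 2 / 4 := by
      rw [hs]
      ring
    rw [h4] at h3
    have h5 : η * T = η + s * η + t ^ 2 / 8 * η := by
      rw [hT, hs]
      ring
    rw [h4]
    linarith
  set Q := ‖φ + (e * t) • g‖ with hQ
  have hQ0 : 0 ≤ Q := norm_nonneg _
  have hup : (φ + (e * t) • g) ζ ≤ Q * ‖ζ‖ :=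
    (le_abs_self _).trans ((φ + (e * t) • g).le_opNorm ζ)
  have hQb : 1 + 7 * t ^ 2 / 64 ≤ Q * (1 + 3 * t ^ 2 / 32) :=
    hlow.trans (hup.trans (mul_le_mul_of_nonneg_left hζn hQ0))
  have hfin : 1 + t ^ 2 / (64 + 6 * t ^ 2) ≤ Q := by
    have hd : 0 < 64 + 6 * t ^ 2 := by positivity
    have e1 : 1 + t ^ 2 / (64 + 6 * t ^ 2) = (64 + 7 * t ^ 2) / (64 + 6 * t ^ 2) := by
      field_simp
      ring
    rw [e1, div_le_iff₀ hd]
    linarith
  rcases he with h | h
  · have : Q = ‖φ + t • g‖ := by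
      rw [hQ, h, one_mul]
    rw [this] at hfin
    exact hfin.trans (le_max_left _ _)
  · have : Q = ‖φ - t • g‖ := by
      rw [hQ, h, neg_one_mul]
      congr 1
      ext y
      rw [add_apply, sub_apply, smul_apply, smul_apply, smul_eq_mul, smul_eq_mul]
      ring
    rw [this] at hfin
    exact hfin.trans (le_max_right _ _)

lemma bdds_of_bounds {S : Type*} (f : S → ℝ) {lo hi : ℝ} (h : ∀ s, lo ≤ f s ∧ f s ≤ hi) :
    BddBelow (Set.range f) ∧ BddAbove (Set.range f) := by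
  constructor
  · refine ⟨lo, ?_⟩
    rintro _ ⟨s, rfl⟩
    exact (h s).1
  · refine ⟨hi, ?_⟩
    rintro _ ⟨s, rfl⟩
    exact (h s).2

/-- Bounds of an infimum over a possibly empty index. -/
lemma iInf_bounds {S : Type*} (f : S → ℝ) {lo hi : ℝ} (h0 : lo ≤ 0) (h1 : 0 ≤ hi)
    (h : ∀ s, lo ≤ f s ∧ f s ≤ hi) : lo ≤ ⨅ s, f s ∧ ⨅ s, f s ≤ hi := by
  rcases isEmpty_or_nonempty S with hS | hS
  · rw [Real.iInf_of_isEmpty]
    exact ⟨h0, h1⟩
  · have := hS
    obtain ⟨s0⟩ := hS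
    exact ⟨le_ciInf fun s => (h s).1,
      (ciInf_le (bdds_of_bounds f h).1 s0).trans (h s0).2⟩

/-- The lower bound of the midpoint modulus of `X`. -/
theorem amModulus_ge {t : ℝ} (ht : 0 < t) :
    t ^ 2 / (64 + 6 * t ^ 2) ≤ amModulus (fun x : X => ‖x‖) t := by
  unfold amModulus
  have : Nonempty {x : X // ‖x‖ = 1} := ⟨⟨coordX [0], norm_coordX (singleton_mem_G 0)⟩⟩
  refine le_ciInf fun x => ?_
  have hx : ‖x.1‖ = 1 := x.2
  obtain ⟨A, hA⟩ := amuc_core x.1 hx ht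
  -- bounds of the inner quantities
  have hval : ∀ (F : Cof X) (y : {y : X // y ∈ F.1 ∧ ‖y‖ = 1}),
      -1 ≤ max ‖x.1 + t • y.1‖ ‖x.1 - t • y.1‖ - 1 ∧
        max ‖x.1 + t • y.1‖ ‖x.1 - t • y.1‖ - 1 ≤ t := by
    intro F y
    have h1 : ‖t • y.1‖ = t := by
      rw [norm_smul, y.2.2, mul_one, Real.norm_eq_abs, abs_of_pos ht]
    constructor
    · have := (norm_nonneg (x.1 + t • y.1)).trans (le_max_left _ (‖x.1 - t • y.1‖))
      linarith
    · have h2 := norm_add_le x.1 (t • y.1)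
      have h3 := norm_sub_le x.1 (t • y.1)
      rw [h1, hx] at h2 h3
      have := max_le h2 h3
      linarith
  have hinner := fun F : Cof X => iInf_bounds _ (by norm_num) ht.le (hval F)
  have hbdd := bdds_of_bounds _ hinner
  refine le_ciSup_of_le hbdd.2 ⟨FA A, FA_closed A, FA_fin A⟩ ?_
  obtain ⟨g0, hg0, hg01⟩ := FA_exists_unit A
  have : Nonempty {y : X // y ∈ FA A ∧ ‖y‖ = 1} := ⟨⟨g0, hg0, hg01⟩⟩
  refine le_ciInf fun y => ?_
  have := hA y.1 y.2.1 y.2.2
  linarith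

end Vale.Agent.Lib.P069
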