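import Mathlib

/-! Potentials and the square-variation seminorm on the tree of lists of naturals. -/

namespace Vale.Agent.Lib.P069

open Finset

/-- Finitely supported weights on the nodes. -/
abbrev Fn := List ℕ →₀ ℝ

/-- Potential: the sum of the weights of all nonempty tails of the node. -/
noncomputable def pot : List ℕ → (Fn →ₗ[ℝ] ℝ)
  | [] => 0
  | m :: l => Finsupp.lapply (m :: l) + pot l

@[simp] lemma pot_nil (w : Fn) : pot [] w = 0 := rfl
@[simp] lemma pot_cons (m : ℕ) (l : List ℕ) (w : Fn) :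
    pot (m :: l) w = w (m :: l) + pot l w := rfl

lemma suf_antisymm {a b : List ℕ} (h : a <:+ b) (h' : b <:+ a) : a = b :=
  h.eq_of_length_le h'.length_le

/-- `β` lies in the half-open segment `(a, b]`. -/
def inSeg (a b β : List ℕ) : Prop := a <:+ β ∧ β <:+ b ∧ β ≠ a

/-- A family of pairwise disjoint segments. -/
def Fam (S : Finset (List ℕ × List ℕ)) : Prop :=
  (∀ σ ∈ S, σ.1 <:+ σ.2) ∧
    ∀ σ ∈ S, ∀ τ ∈ S, σ ≠ τ → ∀ β, inSeg σ.1 σ.2 β → inSeg τ.1 τ.2 β → False

/-- The value of a family. -/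
noncomputable def val (w : Fn) (S : Finset (List ℕ × List ℕ)) : ℝ :=
  ∑ σ ∈ S, (pot σ.2 w - pot σ.1 w) ^ 2

/-- The segment as a finite set. -/
def segF (a b : List ℕ) : Finset (List ℕ) :=
  (b.tails.toFinset).filter (fun β => a <:+ β ∧ β ≠ a)

lemma mem_segF {a b β : List ℕ} : β ∈ segF a b ↔ inSeg a b β := by
  simp only [segF, inSeg, mem_filter, List.mem_toFinset, List.mem_tails]
  tauto

lemma seg_eq_sum (w : Fn) {a b : List ℕ} (h : a <:+ b) :
    pot b w - pot a w = ∑ β ∈ segF a b, w β := by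
  induction b with
  | nil =>
    have ha : a = [] := List.suffix_nil.1 h
    subst ha
    have : segF [] [] = ∅ := by
      ext β
      simp only [mem_segF, notMem_empty, iff_false]
      rintro ⟨_, h2, h3⟩
      exact h3 (List.suffix_nil.1 h2)
    simp [this]
  | cons m l ih =>
    rcases List.suffix_cons_iff.1 h with rfl | h'
    · have : segF (m :: l) (m :: l) = ∅ := by
        ext β
        simp only [mem_segF, notMem_empty, iff_false]
        rintro ⟨h1, h2, h3⟩
        exact h3 (suf_antisymm h2 h1)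
      simp [this]
    · have hne : m :: l ≠ a := by
        intro he
        have := h'.length_le
        rw [← he] at this
        simp at this
      have hset : segF a (m :: l) = insert (m :: l) (segF a l) := by
        ext β
        simp only [mem_insert, mem_segF, inSeg, List.suffix_cons_iff]
        constructor
        · rintro ⟨h1, h2 | h2, h3⟩
          · exact Or.inl h2
          · exact Or.inr ⟨h1, h2, h3⟩
        · rintro (rfl | ⟨h1, h2, h3⟩)
          · exact ⟨h, Or.inl rfl, hne⟩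
          · exact ⟨h1, Or.inr h2, h3⟩
      have hnot : (m :: l) ∉ segF a l := by
        simp only [mem_segF, inSeg]
        rintro ⟨_, h2, _⟩
        have := h2.length_le
        simp at this
      rw [hset, sum_insert hnot, ← ih h', pot_cons]
      ring

/-- Summing a nonnegative function over the segments of a family. -/
lemma sum_seg_le {S : Finset (List ℕ × List ℕ)} (hS : Fam S) (f : List ℕ → ℝ) (hf : ∀ β, 0 ≤ f β)
    (D : Finset (List ℕ)) (hD : ∀ β, f β ≠ 0 → β ∈ D) :
    ∑ σ ∈ S, ∑ β ∈ segF σ.1 σ.2, f β ≤ ∑ β ∈ D, f β := by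
  classical
  have hdisj : (S : Set (List ℕ × List ℕ)).PairwiseDisjoint (fun σ => segF σ.1 σ.2) := by
    intro σ hσ τ hτ hne
    refine Finset.disjoint_left.2 ?_
    intro β h1 h2
    exact hS.2 σ hσ τ hτ hne β (mem_segF.1 h1) (mem_segF.1 h2)
  rw [← sum_biUnion hdisj]
  rw [← sum_filter_ne_zero]
  refine sum_le_sum_of_subset_of_nonneg ?_ (fun β _ _ => hf β)
  intro β hβ
  exact hD β (mem_filter.1 hβ).2

lemma abs_seg_le_sum (w : Fn) {a b : List ℕ} (h : a <:+ b) :
    |pot b w - pot a w| ≤ ∑ β ∈ segF a b, |w β| := by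
  rw [seg_eq_sum w h]
  exact abs_sum_le_sum_abs _ _

lemma val_le_bound (w : Fn) {S : Finset (List ℕ × List ℕ)} (hS : Fam S) :
    val w S ≤ (∑ β ∈ w.support, |w β|) ^ 2 := by
  set T := ∑ β ∈ w.support, |w β| with hT
  have hT0 : 0 ≤ T := sum_nonneg fun _ _ => abs_nonneg _
  have h1 : ∑ σ ∈ S, |pot σ.2 w - pot σ.1 w| ≤ T := by
    refine (sum_le_sum fun σ hσ => abs_seg_le_sum w (hS.1 σ hσ)).trans ?_
    refine sum_seg_le hS (fun β => |w β|) (fun _ => abs_nonneg _) _ ?_
    intro β hβ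
    simpa using hβ
  have h2 : ∀ σ ∈ S, |pot σ.2 w - pot σ.1 w| ≤ T := fun σ hσ =>
    (single_le_sum (f := fun σ : List ℕ × List ℕ => |pot σ.2 w - pot σ.1 w|)
      (fun _ _ => abs_nonneg _) hσ).trans h1
  unfold val
  calc ∑ σ ∈ S, (pot σ.2 w - pot σ.1 w) ^ 2
      = ∑ σ ∈ S, |pot σ.2 w - pot σ.1 w| * |pot σ.2 w - pot σ.1 w| := by
        refine sum_congr rfl fun σ _ => ?_
        rw [abs_mul_abs_self]; ring
    _ ≤ ∑ σ ∈ S, |pot σ.2 w - pot σ.1 w| * T :=
        sum_le_sum fun σ hσ => mul_le_mul_of_nonneg_left (h2 σ hσ) (abs_nonneg _)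
    _ = (∑ σ ∈ S, |pot σ.2 w - pot σ.1 w|) * T := by rw [sum_mul]
    _ ≤ T * T := mul_le_mul_of_nonneg_right h1 hT0
    _ = T ^ 2 := by ring

/-- The set of values of all families. -/
def vals (w : Fn) : Set ℝ := {x | ∃ S, Fam S ∧ val w S = x}

/-- The square-variation seminorm. -/
noncomputable def nrm (w : Fn) : ℝ := Real.sqrt (sSup (vals w))

lemma fam_empty : Fam ∅ := by simp [Fam]

lemma vals_nonempty (w : Fn) : (vals w).Nonempty := ⟨val w ∅, ∅, fam_empty, rfl⟩

lemma vals_bdd (w : Fn) : BddAbove (vals w) := by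
  refine ⟨(∑ β ∈ w.support, |w β|) ^ 2, ?_⟩
  rintro x ⟨S, hS, rfl⟩
  exact val_le_bound w hS

lemma sSup_vals_nonneg (w : Fn) : 0 ≤ sSup (vals w) :=
  le_csSup_of_le (vals_bdd w) ⟨∅, fam_empty, rfl⟩ (by simp [val])

lemma nrm_nonneg (w : Fn) : 0 ≤ nrm w := Real.sqrt_nonneg _

lemma nrm_sq (w : Fn) : nrm w ^ 2 = sSup (vals w) := Real.sq_sqrt (sSup_vals_nonneg w)

lemma val_le_nrm_sq (w : Fn) {S : Finset (List ℕ × List ℕ)} (hS : Fam S) : val w S ≤ nrm w ^ 2 := by
  rw [nrm_sq]
  exact le_csSup (vals_bdd w) ⟨S, hS, rfl⟩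

lemma nrm_sq_le {w : Fn} {C : ℝ} (h : ∀ S, Fam S → val w S ≤ C) : nrm w ^ 2 ≤ C := by
  rw [nrm_sq]
  refine csSup_le (vals_nonempty w) ?_
  rintro x ⟨S, hS, rfl⟩
  exact h S hS

lemma nrm_le_of_sq {w : Fn} {C : ℝ} (hC : 0 ≤ C) (h : ∀ S, Fam S → val w S ≤ C ^ 2) :
    nrm w ≤ C :=
  abs_le_of_sq_le_sq' (nrm_sq_le h) hC |>.2

/-- Any finite indexed disjoint family of segments gives a lower bound of the seminorm. -/
lemma sum_le_nrm_sq {ι : Type*} (s : Finset ι) (a b : ι → List ℕ) (hab : ∀ i ∈ s, a i <:+ b i)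
    (hd : ∀ i ∈ s, ∀ j ∈ s, i ≠ j → ∀ β, inSeg (a i) (b i) β → inSeg (a j) (b j) β → False)
    (w : Fn) : ∑ i ∈ s, (pot (b i) w - pot (a i) w) ^ 2 ≤ nrm w ^ 2 := by
  classical
  set s' := s.filter (fun i => a i ≠ b i) with hs'
  have h1 : ∑ i ∈ s', (pot (b i) w - pot (a i) w) ^ 2
      = ∑ i ∈ s, (pot (b i) w - pot (a i) w) ^ 2 := by
    refine sum_filter_of_ne ?_
    intro i _ hi he
    apply hi
    rw [he]
    simp
  rw [← h1]
  have hseg : ∀ i ∈ s', inSeg (a i) (b i) (b i) := by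
    intro i hi
    have hi' := mem_filter.1 hi
    exact ⟨hab i hi'.1, List.suffix_refl _, fun he => hi'.2 he.symm⟩
  have hinj : Set.InjOn (fun i => (a i, b i)) (s' : Set ι) := by
    intro i hi j hj he
    by_contra hne
    have he' := Prod.mk.inj he
    have hi' := mem_filter.1 hi
    have hj' := mem_filter.1 hj
    refine hd i hi'.1 j hj'.1 hne (b i) (hseg i hi) ?_
    rw [he'.2]
    exact hseg j hj
  have hfam : Fam (s'.image fun i => (a i, b i)) := by
    constructor
    · intro σ hσ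
      obtain ⟨i, hi, rfl⟩ := mem_image.1 hσ
      exact hab i (mem_filter.1 hi).1
    · intro σ hσ τ hτ hne β h1 h2
      obtain ⟨i, hi, rfl⟩ := mem_image.1 hσ
      obtain ⟨j, hj, rfl⟩ := mem_image.1 hτ
      have hij : i ≠ j := fun he => hne (by rw [he])
      exact hd i (mem_filter.1 hi).1 j (mem_filter.1 hj).1 hij β h1 h2
  have := val_le_nrm_sq w hfam
  unfold val at this
  rwa [sum_image hinj] at this

lemma abs_seg_le_nrm (w : Fn) {a b : List ℕ} (h : a <:+ b) : |pot b w - pot a w| ≤ nrm w := by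
  have := sum_le_nrm_sq ({()} : Finset Unit) (fun _ => a) (fun _ => b) (fun _ _ => h)
    (fun i hi j hj hne => absurd (Subsingleton.elim i j) hne) w
  simp only [sum_singleton] at this
  exact abs_le_of_sq_le_sq this (nrm_nonneg w)

lemma abs_pot_le_nrm (w : Fn) (b : List ℕ) : |pot b w| ≤ nrm w := by
  have := abs_seg_le_nrm w (List.nil_suffix (l := b))
  simpa using this

lemma abs_coord_le_nrm (w : Fn) (m : ℕ) (l : List ℕ) : |w (m :: l)| ≤ nrm w := by
  have := abs_seg_le_nrm w (List.suffix_cons m l)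
  simpa using this

/-- The sum of squares of coordinates at nonroot nodes is below the square of the seminorm. -/
lemma sum_sq_le_nrm_sq (w : Fn) (B : Finset (List ℕ)) (hB : [] ∉ B) :
    ∑ β ∈ B, w β ^ 2 ≤ nrm w ^ 2 := by
  have h := sum_le_nrm_sq B (fun β => β.tail) (fun β => β) (fun β _ => List.tail_suffix β) ?_ w
  · refine le_trans (le_of_eq ?_) h
    refine sum_congr rfl fun β hβ => ?_
    cases β with
    | nil => exact absurd hβ hB
    | cons m l => simp
  · intro i hi j hj hne β h1 h2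
    cases i with
    | nil => exact hB hi
    | cons m l =>
      cases j with
      | nil => exact hB hj
      | cons m' l' =>
        obtain ⟨h11, h12, h13⟩ := h1
        obtain ⟨h21, h22, h23⟩ := h2
        simp only [List.tail_cons] at h11 h13 h21 h23
        have e1 : β = m :: l := by
          rcases List.suffix_cons_iff.1 h12 with h | h
          · exact h
          · exact absurd (suf_antisymm h h11) h13
        have e2 : β = m' :: l' := by
          rcases List.suffix_cons_iff.1 h22 with h | h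
          · exact h
          · exact absurd (suf_antisymm h h21) h23
        exact hne (e1.symm.trans e2)

lemma val_add_le (u v : Fn) {S : Finset (List ℕ × List ℕ)} (hS : Fam S) :
    val (u + v) S ≤ (nrm u + nrm v) ^ 2 := by
  have hu := val_le_nrm_sq u hS
  have hv := val_le_nrm_sq v hS
  set x : List ℕ × List ℕ → ℝ := fun σ => pot σ.2 u - pot σ.1 u with hx
  set y : List ℕ × List ℕ → ℝ := fun σ => pot σ.2 v - pot σ.1 v with hy
  have hval : val (u + v) S = ∑ σ ∈ S, x σ ^ 2 + 2 * ∑ σ ∈ S, x σ * y σ + ∑ σ ∈ S, y σ ^ 2 := by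
    unfold val
    rw [mul_sum, ← sum_add_distrib, ← sum_add_distrib]
    refine sum_congr rfl fun σ _ => ?_
    simp only [hx, hy, map_add]
    ring
  have hc := sum_mul_sq_le_sq_mul_sq S x y
  have hu' : ∑ σ ∈ S, x σ ^ 2 ≤ nrm u ^ 2 := hu
  have hv' : ∑ σ ∈ S, y σ ^ 2 ≤ nrm v ^ 2 := hv
  have hxy : ∑ σ ∈ S, x σ * y σ ≤ nrm u * nrm v := by
    have h0x : 0 ≤ ∑ σ ∈ S, x σ ^ 2 := sum_nonneg fun _ _ => sq_nonneg _
    have h0y : 0 ≤ ∑ σ ∈ S, y σ ^ 2 := sum_nonneg fun _ _ => sq_nonneg _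
    have h2 : (∑ σ ∈ S, x σ * y σ) ^ 2 ≤ (nrm u * nrm v) ^ 2 := by
      rw [mul_pow]
      exact hc.trans (mul_le_mul hu' hv' h0y (sq_nonneg _))
    exact abs_le_of_sq_le_sq' h2 (mul_nonneg (nrm_nonneg u) (nrm_nonneg v)) |>.2
  rw [hval]
  nlinarith

lemma nrm_add_le (u v : Fn) : nrm (u + v) ≤ nrm u + nrm v :=
  nrm_le_of_sq (add_nonneg (nrm_nonneg u) (nrm_nonneg v)) fun _ hS => val_add_le u v hS

lemma val_smul (c : ℝ) (w : Fn) (S : Finset (List ℕ × List ℕ)) :
    val (c • w) S = c ^ 2 * val w S := by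
  unfold val
  rw [mul_sum]
  refine sum_congr rfl fun σ _ => ?_
  simp only [map_smul, smul_eq_mul]
  ring

lemma nrm_smul_le (c : ℝ) (w : Fn) : nrm (c • w) ≤ |c| * nrm w := by
  refine nrm_le_of_sq (mul_nonneg (abs_nonneg c) (nrm_nonneg w)) fun S hS => ?_
  rw [val_smul, mul_pow, sq_abs]
  exact mul_le_mul_of_nonneg_left (val_le_nrm_sq w hS) (sq_nonneg c)

lemma nrm_smul (c : ℝ) (w : Fn) : nrm (c • w) = |c| * nrm w := by
  refine le_antisymm (nrm_smul_le c w) ?_
  by_cases hc : c = 0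
  · subst hc
    simp [nrm_nonneg]
  · have h := nrm_smul_le c⁻¹ (c • w)
    rw [smul_smul, inv_mul_cancel₀ hc, one_smul, abs_inv] at h
    have hpos : 0 < |c| := abs_pos.2 hc
    calc |c| * nrm w ≤ |c| * (|c|⁻¹ * nrm (c • w)) := mul_le_mul_of_nonneg_left h hpos.le
      _ = nrm (c • w) := by field_simp

lemma nrm_neg (w : Fn) : nrm (-w) = nrm w := by
  have := nrm_smul (-1) w
  simpa using this

lemma nrm_zero : nrm 0 = 0 := by
  have := nrm_smul 0 (0 : Fn)
  simpa using this

/-- A comparison principle: a pointwise bound of segment increments gives a bound of seminorms. -/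
lemma nrm_le_of_incr {u w : Fn}
    (h : ∀ a b : List ℕ, a <:+ b → |pot b u - pot a u| ≤ |pot b w - pot a w|) :
    nrm u ≤ nrm w := by
  refine nrm_le_of_sq (nrm_nonneg w) fun S hS => ?_
  refine le_trans ?_ (val_le_nrm_sq w hS)
  refine sum_le_sum fun σ hσ => ?_
  exact sq_le_sq.2 (h _ _ (hS.1 σ hσ))

end Vale.Agent.Lib.P069
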