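import Mathlib

/-! The moduli of asymptotic uniform convexity and asymptotic midpoint uniform convexity. -/

namespace Vale.Agent.Lib.P069

/-- The closed subspaces of finite codimension of `X`. -/
def Cof (X : Type) [NormedAddCommGroup X] [NormedSpace ℝ X] : Type :=
  {F : Submodule ℝ X // IsClosed (F : Set X) ∧ FiniteDimensional ℝ (X ⧸ F)}

/-- The modulus of asymptotic uniform convexity of a function `N` on `X`. -/
noncomputable def auModulus {X : Type} [NormedAddCommGroup X] [NormedSpace ℝ X] (N : X → ℝ)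
    (t : ℝ) : ℝ :=
  ⨅ x : {x : X // N x = 1}, ⨆ F : Cof X, ⨅ y : {y : X // y ∈ F.1 ∧ N y = 1},
    (N (x.1 + t • y.1) - 1)

/-- The modulus of asymptotic midpoint uniform convexity of a function `N` on `X`. -/
noncomputable def amModulus {X : Type} [NormedAddCommGroup X] [NormedSpace ℝ X] (N : X → ℝ)
    (t : ℝ) : ℝ :=
  ⨅ x : {x : X // N x = 1}, ⨆ F : Cof X, ⨅ y : {y : X // y ∈ F.1 ∧ N y = 1},
    (max (N (x.1 + t • y.1)) (N (x.1 - t • y.1)) - 1)

/-- `N` is a norm on `X` equivalent to the given norm. -/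
structure IsEquivNorm {X : Type} [NormedAddCommGroup X] [NormedSpace ℝ X] (N : X → ℝ) : Prop where
  add_le : ∀ x y : X, N (x + y) ≤ N x + N y
  smul_eq : ∀ (c : ℝ) (x : X), N (c • x) = |c| * N x
  bounds : ∃ a b : ℝ, 0 < a ∧ 0 < b ∧ ∀ x : X, a * ‖x‖ ≤ N x ∧ N x ≤ b * ‖x‖

end Vale.Agent.Lib.P069
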