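import Vale.Agent.Lib.P069.Restr

/-! The splitting dichotomy and the key inequality. -/

namespace Vale.Agent.Lib.P069

open Finset
open scoped Classical

/-- Increment of the potential from `a` to `δ`. -/
noncomputable def xv (z : Fn) (δ a : List ℕ) : ℝ := pot δ z - pot a z

/-- The splitting condition for one of the two signs. -/
def SplitOK (z : Fn) (δ : List ℕ) (τ sg : ℝ) : Prop :=
  ∀ a, a <:+ δ → sg * xv z δ a < 0 → ∃ v, a <:+ v ∧ v <:+ δ ∧
    2 * |xv z δ a| * τ + (xv z δ a) ^ 2 ≤ (xv z δ a - xv z δ v) ^ 2 + (xv z δ v) ^ 2 + 2 * τ ^ 2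

/-- At least one of the two signs satisfies the splitting condition. -/
lemma split_dichotomy (z : Fn) (δ : List ℕ) {τ : ℝ} (hτ : 0 ≤ τ) :
    SplitOK z δ τ 1 ∨ SplitOK z δ τ (-1) := by
  by_contra hcon
  rw [not_or] at hcon
  obtain ⟨h1, h2⟩ := hcon
  unfold SplitOK at h1 h2
  push Not at h1 h2
  obtain ⟨a1, ha1, hx1, hv1⟩ := h1
  obtain ⟨a2, ha2, hx2, hv2⟩ := h2
  set x1 := xv z δ a1 with hx1d
  set x2 := xv z δ a2 with hx2d
  have hxδ : xv z δ δ = 0 := by simp [xv]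
  have hneg1 : x1 < 0 := by linarith
  have hpos2 : 0 < x2 := by linarith
  rw [abs_of_neg hneg1] at hv1
  rw [abs_of_pos hpos2] at hv2
  have e1 := hv1 δ ha1 (List.suffix_refl _)
  have e2 := hv2 δ ha2 (List.suffix_refl _)
  rw [hxδ] at e1 e2
  have h1' : τ * τ < -x1 * τ := by nlinarith
  have h2' : τ * τ < x2 * τ := by nlinarith
  have hτpos : 0 < τ := by
    rcases hτ.lt_or_eq with h | h
    · exact h
    · rw [← h] at h1'
      simp at h1'
  have hq : τ < -x1 := lt_of_mul_lt_mul_right (by nlinarith) hτ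
  have hp : τ < x2 := lt_of_mul_lt_mul_right (by nlinarith) hτ
  rcases List.suffix_or_suffix_of_suffix ha1 ha2 with h | h
  · have e := hv1 a2 h ha2
    rw [← hx2d] at e
    nlinarith
  · have e := hv2 a1 h ha1
    rw [← hx1d] at e
    nlinarith

/-- The sign given by the dichotomy. -/
noncomputable def sgnOf (z : Fn) (δ : List ℕ) (τ : ℝ) : ℝ := if SplitOK z δ τ 1 then 1 else -1

lemma sgnOf_spec (z : Fn) (δ : List ℕ) {τ : ℝ} (hτ : 0 ≤ τ) : SplitOK z δ τ (sgnOf z δ τ) := by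
  unfold sgnOf
  split_ifs with h
  · exact h
  · exact (split_dichotomy z δ hτ).resolve_left h

lemma sgnOf_cases (z : Fn) (δ : List ℕ) (τ : ℝ) : sgnOf z δ τ = 1 ∨ sgnOf z δ τ = -1 := by
  unfold sgnOf
  split_ifs
  · exact Or.inl rfl
  · exact Or.inr rfl

section key

variable {A : Set (List ℕ)} {z v : Fn} {τ : List ℕ → ℝ}

/-- The bound for one segment. -/
lemma seg_bound (hA : IsInit A) (hz : ∀ β, β ∉ A → z β = 0) (hv : ∀ β ∈ A, v β = 0)
    (hτ : ∀ c, 0 ≤ τ c)
    (hbd : ∀ α, α ∉ A → |pot α v| ≤ τ (hang A α))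
    (hsg : ∀ α, α ∉ A → sgnOf z (hang A α).tail (τ (hang A α)) * pot α v ≤ 0)
    (a b : List ℕ) (hab : a <:+ b) :
    ∃ u1 u2 u3 u4 : List ℕ, u1 <:+ u2 ∧ u2 <:+ u3 ∧ u4 <:+ b ∧
      (∀ β, inSeg u1 u2 β → inSeg a b β ∧ β ∈ A) ∧
      (∀ β, inSeg u2 u3 β → inSeg a b β ∧ β ∈ A) ∧
      (∀ β, inSeg u4 b β → inSeg a b β ∧ β ∉ A) ∧
      (pot b (z + v) - pot a (z + v)) ^ 2 ≤
        (pot u2 z - pot u1 z) ^ 2 + (pot u3 z - pot u2 z) ^ 2 + (pot b v - pot u4 v) ^ 2 +
          2 * (if a ∈ A ∧ b ∉ A then τ (hang A b) ^ 2 else 0) := by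
  have hempty : ∀ u β, inSeg u u β → False := by
    rintro u β ⟨h1, h2, h3⟩
    exact h3 (suf_antisymm h2 h1)
  by_cases ha : a ∈ A
  · by_cases hb : b ∈ A
    · -- the segment lies in `A`
      refine ⟨a, b, b, b, hab, List.suffix_refl _, List.suffix_refl _, ?_, ?_, ?_, ?_⟩
      · intro β h
        exact ⟨h, hA.suffix h.2.1 hb⟩
      · intro β h
        exact (hempty _ _ h).elim
      · intro β h
        exact (hempty _ _ h).elim
      · have h1 : pot b v = 0 := pot_eq_zero_of_off hA hv hb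
        have h2 : pot a v = 0 := pot_eq_zero_of_off hA hv ha
        rw [if_neg (fun h => h.2 hb)]
        simp only [map_add, h1, h2, sub_self]
        nlinarith [sq_nonneg (pot b z - pot a z)]
    · -- the segment leaves `A`
      set δ := deep A b with hδ
      set c := hang A b with hc
      have hδc : δ = c.tail := deep_eq_hang_tail hA hb
      have haδ : a <:+ δ := le_deep hA hab ha
      have hδb : δ <:+ b := deep_suffix A b
      have hδA : δ ∈ A := deep_mem hA b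
      have hzb : pot b z = pot δ z := pot_of_supp hA hz b
      have hva : pot a v = 0 := pot_eq_zero_of_off hA hv ha
      have hvδ : pot δ v = 0 := pot_eq_zero_of_off hA hv hδA
      have hy1 := hbd b hb
      have hy2 := hsg b hb
      rw [← hc] at hy1 hy2
      rw [← hδc] at hy2
      set y := pot b v with hy
      set x := xv z δ a with hx
      have hsub : ∀ u, a <:+ u → u <:+ δ → ∀ β, inSeg a u β → inSeg a b β ∧ β ∈ A := by
        intro u _ h2 β h
        have hβ : β <:+ δ := h.2.1.trans h2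
        exact ⟨⟨h.1, hβ.trans hδb, h.2.2⟩, hA.suffix hβ hδA⟩
      have hsub2 : ∀ u, a <:+ u → u <:+ δ → ∀ β, inSeg u δ β → inSeg a b β ∧ β ∈ A := by
        intro u h1 _ β h
        refine ⟨⟨h1.trans h.1, h.2.1.trans hδb, ?_⟩, hA.suffix h.2.1 hδA⟩
        rintro rfl
        exact h.2.2 (suf_antisymm h1 h.1)
      have hsub3 : ∀ β, inSeg δ b β → inSeg a b β ∧ β ∉ A := by
        intro β h
        have hβ : β ∉ A := fun hβ => h.2.2 (suf_antisymm (le_deep hA h.2.1 hβ) h.1)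
        refine ⟨⟨haδ.trans h.1, h.2.1, ?_⟩, hβ⟩
        rintro rfl
        exact hβ ha
      have hval : pot b (z + v) - pot a (z + v) = x + y := by
        simp only [map_add, hzb, hva, hx, xv]
        ring
      have hE : (if a ∈ A ∧ b ∉ A then τ c ^ 2 else 0) = τ c ^ 2 := if_pos ⟨ha, hb⟩
      have hlast : (pot b v - pot δ v) ^ 2 = y ^ 2 := by rw [hvδ, sub_zero]
      have hcases := sgnOf_cases z δ (τ c)
      by_cases hadv : sgnOf z δ (τ c) * x < 0
      · obtain ⟨u, hau, huδ, hsplit⟩ := sgnOf_spec z δ (hτ c) a haδ hadv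
        refine ⟨a, u, δ, δ, hau, huδ, hδb, hsub u hau huδ, hsub2 u hau huδ, hsub3, ?_⟩
        rw [hval, hE, hlast]
        have e1 : pot u z - pot a z = x - xv z δ u := by simp only [hx, xv]; ring
        have e2 : pot δ z - pot u z = xv z δ u := rfl
        rw [e1, e2]
        have hxy : x * y ≤ |x| * τ c :=
          (le_abs_self _).trans ((abs_mul x y).le.trans
            (mul_le_mul_of_nonneg_left hy1 (abs_nonneg x)))
        nlinarith
      · refine ⟨a, δ, δ, δ, haδ, List.suffix_refl _, hδb, hsub δ haδ (List.suffix_refl _),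
          hsub2 δ haδ (List.suffix_refl _), hsub3, ?_⟩
        rw [hval, hE, hlast]
        have e1 : pot δ z - pot a z = x := rfl
        rw [e1, sub_self]
        have hxy : x * y ≤ 0 := by
          push Not at hadv
          rcases hcases with h | h
          · rw [h] at hadv hy2
            nlinarith
          · rw [h] at hadv hy2
            nlinarith
        nlinarith [sq_nonneg (τ c)]
  · -- the segment lies off `A`
    refine ⟨a, a, a, a, List.suffix_refl _, List.suffix_refl _, hab, ?_, ?_, ?_, ?_⟩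
    · intro β h
      exact (hempty _ _ h).elim
    · intro β h
      exact (hempty _ _ h).elim
    · intro β h
      exact ⟨h, fun hβ => ha (hA.suffix h.1 hβ)⟩
    · have e : pot b z = pot a z := by
        rw [pot_of_supp hA hz b, pot_of_supp hA hz a, deep_eq_of_not_mem hA hab ha]
      rw [if_neg (fun h => ha h.1)]
      simp only [map_add, e, sub_self]
      nlinarith [sq_nonneg (pot b v - pot a v)]

/-- The key inequality. -/
theorem key_ineq (hA : IsInit A) (hz : ∀ β, β ∉ A → z β = 0) (hv : ∀ β ∈ A, v β = 0)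
    (hτ : ∀ c, 0 ≤ τ c) (C : Finset (List ℕ)) (hC : ∀ c, c ∉ C → τ c = 0)
    (hbd : ∀ α, α ∉ A → |pot α v| ≤ τ (hang A α))
    (hsg : ∀ α, α ∉ A → sgnOf z (hang A α).tail (τ (hang A α)) * pot α v ≤ 0) :
    nrm (z + v) ^ 2 ≤ nrm z ^ 2 + nrm v ^ 2 + 2 * ∑ c ∈ C, τ c ^ 2 := by
  refine nrm_sq_le fun S hS => ?_
  have hex : ∀ σ : List ℕ × List ℕ, σ.1 <:+ σ.2 → _ := fun σ h =>
    seg_bound hA hz hv hτ hbd hsg σ.1 σ.2 h
  choose! u1 u2 u3 u4 h12 h23 h4 hp1 hp2 hp3 hineq using hex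
  -- first part: the pieces in `A`
  have part1 : ∑ σ ∈ S, ((pot (u2 σ) z - pot (u1 σ) z) ^ 2 + (pot (u3 σ) z - pot (u2 σ) z) ^ 2)
      ≤ nrm z ^ 2 := by
    have := sum_le_nrm_sq (S ×ˢ (univ : Finset Bool))
      (fun i => if i.2 then u1 i.1 else u2 i.1) (fun i => if i.2 then u2 i.1 else u3 i.1) ?_ ?_ z
    · rw [sum_product] at this
      refine le_trans (le_of_eq ?_) this
      refine sum_congr rfl fun σ _ => ?_
      simp
    · rintro ⟨σ, x⟩ hi
      have hσ : σ ∈ S := (mem_product.1 hi).1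
      cases x
      · exact h23 σ (hS.1 σ hσ)
      · exact h12 σ (hS.1 σ hσ)
    · rintro ⟨σ, x⟩ hi ⟨τ', y⟩ hj hne β h1 h2
      have hσ : σ ∈ S := (mem_product.1 hi).1
      have hτ' : τ' ∈ S := (mem_product.1 hj).1
      have hs1 : inSeg σ.1 σ.2 β := by
        cases x
        · exact (hp2 σ (hS.1 σ hσ) β h1).1
        · exact (hp1 σ (hS.1 σ hσ) β h1).1
      have hs2 : inSeg τ'.1 τ'.2 β := by
        cases y
        · exact (hp2 τ' (hS.1 τ' hτ') β h2).1
        · exact (hp1 τ' (hS.1 τ' hτ') β h2).1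
      by_cases he : σ = τ'
      · subst he
        have hxy : x ≠ y := fun h => hne (by rw [h])
        simp only at h1 h2
        cases x <;> cases y
        · exact hxy rfl
        · simp only [Bool.false_eq_true, if_false, if_true] at h1 h2
          exact h1.2.2 (suf_antisymm h2.2.1 h1.1)
        · simp only [Bool.false_eq_true, if_false, if_true] at h1 h2
          exact h2.2.2 (suf_antisymm h1.2.1 h2.1)
        · exact hxy rfl
      · exact hS.2 σ hσ τ' hτ' he β hs1 hs2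
  -- second part: the pieces off `A`
  have part2 : ∑ σ ∈ S, (pot σ.2 v - pot (u4 σ) v) ^ 2 ≤ nrm v ^ 2 := by
    refine sum_le_nrm_sq S u4 (fun σ => σ.2) (fun σ hσ => h4 σ (hS.1 σ hσ)) ?_ v
    intro σ hσ τ' hτ' hne β h1 h2
    exact hS.2 σ hσ τ' hτ' hne β (hp3 σ (hS.1 σ hσ) β h1).1 (hp3 τ' (hS.1 τ' hτ') β h2).1
  -- third part: the error terms
  have part3 : ∑ σ ∈ S, (if σ.1 ∈ A ∧ σ.2 ∉ A then τ (hang A σ.2) ^ 2 else 0)
      ≤ ∑ c ∈ C, τ c ^ 2 := by
    rw [← sum_filter]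
    set S' := S.filter (fun σ : List ℕ × List ℕ => σ.1 ∈ A ∧ σ.2 ∉ A) with hS'
    have hinj : Set.InjOn (fun σ : List ℕ × List ℕ => hang A σ.2) (S' : Set (List ℕ × List ℕ)) := by
      intro σ hσ τ' hτ' he
      by_contra hne
      have hσ' := mem_filter.1 hσ
      have hτ'' := mem_filter.1 hτ'
      have e1 := hang_inSeg hA (hS.1 σ hσ'.1) hσ'.2.1 hσ'.2.2
      have e2 := hang_inSeg hA (hS.1 τ' hτ''.1) hτ''.2.1 hτ''.2.2
      simp only at he
      rw [← he] at e2
      exact hS.2 σ hσ'.1 τ' hτ''.1 hne _ e1 e2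
    have e : ∑ σ ∈ S', τ (hang A σ.2) ^ 2 = ∑ c ∈ S'.image (fun σ => hang A σ.2), τ c ^ 2 :=
      (sum_image (f := fun c => τ c ^ 2) hinj).symm
    rw [e, ← sum_filter_ne_zero]
    refine sum_le_sum_of_subset_of_nonneg ?_ (fun _ _ _ => sq_nonneg _)
    intro c hc
    have hc' := (mem_filter.1 hc).2
    by_contra hcC
    exact hc' (by rw [hC c hcC]; ring)
  calc val (z + v) S = ∑ σ ∈ S, (pot σ.2 (z + v) - pot σ.1 (z + v)) ^ 2 := rfl
    _ ≤ ∑ σ ∈ S, (((pot (u2 σ) z - pot (u1 σ) z) ^ 2 + (pot (u3 σ) z - pot (u2 σ) z) ^ 2) +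
          (pot σ.2 v - pot (u4 σ) v) ^ 2 +
          2 * (if σ.1 ∈ A ∧ σ.2 ∉ A then τ (hang A σ.2) ^ 2 else 0)) :=
        sum_le_sum fun σ hσ => hineq σ (hS.1 σ hσ)
    _ = ∑ σ ∈ S, ((pot (u2 σ) z - pot (u1 σ) z) ^ 2 + (pot (u3 σ) z - pot (u2 σ) z) ^ 2) +
          ∑ σ ∈ S, (pot σ.2 v - pot (u4 σ) v) ^ 2 +
          2 * ∑ σ ∈ S, (if σ.1 ∈ A ∧ σ.2 ∉ A then τ (hang A σ.2) ^ 2 else 0) := by
        rw [mul_sum, ← sum_add_distrib, ← sum_add_distrib]
    _ ≤ nrm z ^ 2 + nrm v ^ 2 + 2 * ∑ c ∈ C, τ c ^ 2 := by linarith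

end key

end Vale.Agent.Lib.P069
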