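import Vale.Agent.Lib.P069.Amuc

/-! No equivalent norm on `X` is asymptotically uniformly convex. -/

namespace Vale.Agent.Lib.P069

open Finset Filter Topology
open scoped Classical

/-- The coordinate functionals at the children of a node are square summable against functionals
on `X`. -/
lemma sum_sq_eval_le (f : StrongDual ℝ X) (β : List ℕ) (M : Finset ℕ) :
    ∑ m ∈ M, f (coordX (m :: β)) ^ 2 ≤ ‖f‖ ^ 2 := by
  set a : ℕ → ℝ := fun m => f (coordX (m :: β)) with ha
  set S := ∑ m ∈ M, a m ^ 2 with hS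
  have hS0 : 0 ≤ S := sum_nonneg fun _ _ => sq_nonneg _
  set ξ : X := ∑ m ∈ M, a m • coordX (m :: β) with hξ
  have hfξ : f ξ = S := by
    rw [hξ, map_sum, hS]
    refine sum_congr rfl fun m _ => ?_
    rw [map_smul, smul_eq_mul, sq]
  set r := Real.sqrt S with hr
  have hr0 : 0 ≤ r := Real.sqrt_nonneg _
  have hr2 : r ^ 2 = S := Real.sq_sqrt hS0
  have hξn : ‖ξ‖ ≤ r := by
    refine ContinuousLinearMap.opNorm_le_bound _ hr0 fun y => ?_
    have e : ξ y = ∑ m ∈ M, a m * fn y (m :: β) := by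
      rw [hξ, _root_.sum_apply]
      refine sum_congr rfl fun m _ => ?_
      rw [smul_apply, coordX_apply, smul_eq_mul]
    have h1 : ∑ m ∈ M, fn y (m :: β) ^ 2 ≤ ‖y‖ ^ 2 := by
      have hinj : Set.InjOn (fun m : ℕ => m :: β) (M : Set ℕ) := by
        intro m _ m' _ h
        simpa using h
      have := sum_sq_le_nrm_sq (fn y) (M.image fun m => m :: β) (by simp)
      rwa [sum_image hinj] at this
    have h2 := sum_mul_sq_le_sq_mul_sq M a (fun m => fn y (m :: β))
    rw [Real.norm_eq_abs, e]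
    have h5 : (∑ m ∈ M, a m * fn y (m :: β)) ^ 2 ≤ (r * ‖y‖) ^ 2 := by
      rw [mul_pow, hr2]
      exact h2.trans (mul_le_mul_of_nonneg_left h1 hS0)
    exact abs_le_of_sq_le_sq h5 (mul_nonneg hr0 (norm_nonneg y))
  have h3 : S ≤ ‖f‖ * r := by
    rw [← hfξ]
    exact (le_abs_self _).trans ((f.le_opNorm ξ).trans
      (mul_le_mul_of_nonneg_left hξn (ContinuousLinearMap.opNorm_nonneg f)))
  rcases hr0.lt_or_eq with hpos | h0
  · have h4 : r ≤ ‖f‖ := by
      have : r * r ≤ ‖f‖ * r := by nlinarith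
      exact le_of_mul_le_mul_right this hpos
    rw [← hr2]
    exact pow_le_pow_left₀ hr0 h4 2
  · rw [← hr2, ← h0]
    exact pow_le_pow_left₀ le_rfl (ContinuousLinearMap.opNorm_nonneg f) 2

/-- The coordinate functionals at the children of a node tend weakly to zero. -/
lemma tendsto_eval (f : StrongDual ℝ X) (β : List ℕ) :
    Tendsto (fun m : ℕ => f (coordX (m :: β))) atTop (𝓝 0) := by
  have hs : Summable (fun m : ℕ => f (coordX (m :: β)) ^ 2) :=
    summable_of_sum_le (fun _ => sq_nonneg _) (fun s => sum_sq_eval_le f β s)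
  have h := hs.tendsto_atTop_zero
  have h2 := (Real.continuous_sqrt.tendsto 0).comp h
  rw [Real.sqrt_zero] at h2
  refine squeeze_zero_norm (a := fun m : ℕ => Real.sqrt (f (coordX (m :: β)) ^ 2)) ?_ h2
  intro m
  rw [Real.sqrt_sq_eq_abs, Real.norm_eq_abs]

/-- A weakly null sequence comes close to any closed subspace of finite codimension. -/
lemma near_subspace {E : Type*} [NormedAddCommGroup E] [NormedSpace ℝ E] (F : Submodule ℝ E)
    (hF : IsClosed (F : Set E)) (hfin : FiniteDimensional ℝ (E ⧸ F)) (y : ℕ → E)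
    (hy : ∀ f : StrongDual ℝ E, Tendsto (fun m => f (y m)) atTop (𝓝 0)) {ε : ℝ} (hε : 0 < ε) :
    ∃ m, ∃ y' ∈ F, ‖y m - y'‖ < ε := by
  have : IsClosed (F : Set E) := hF
  let b := Module.finBasis ℝ (E ⧸ F)
  let q : E →L[ℝ] (E ⧸ F) := LinearMap.mkContinuous F.mkQ 1 (fun x => by
    rw [one_mul]
    exact Submodule.Quotient.norm_mk_le F x)
  have hq : ∀ x, q x = Submodule.Quotient.mk x := fun _ => rfl
  have h1 : ∀ i, Tendsto (fun m => b.coord i (q (y m))) atTop (𝓝 0) := by
    intro i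
    exact hy ((LinearMap.toContinuousLinearMap (b.coord i)).comp q)
  have h2 : Tendsto (fun m => q (y m)) atTop (𝓝 0) := by
    have h3 : Tendsto (fun m => ∑ i, b.coord i (q (y m)) • b i) atTop
        (𝓝 (∑ i, (0 : ℝ) • b i)) :=
      tendsto_finsetSum _ fun i _ => (h1 i).smul_const _
    simp only [zero_smul, sum_const_zero] at h3
    refine h3.congr fun m => ?_
    exact b.sum_repr _
  have h4 := (tendsto_iff_norm_sub_tendsto_zero.1 h2)
  simp only [sub_zero] at h4
  obtain ⟨m, hm⟩ := (h4.eventually (gt_mem_nhds (half_pos hε))).exists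
  obtain ⟨u, hu, hu'⟩ := Submodule.Quotient.norm_mk_lt (q (y m)) (half_pos hε)
  refine ⟨m, y m - u, ?_, ?_⟩
  · rw [hq] at hu
    rw [← Submodule.Quotient.eq]
    exact hu.symm
  · rw [sub_sub_cancel]
    linarith

section modulus

variable {E : Type} [NormedAddCommGroup E] [NormedSpace ℝ E] {N : E → ℝ}

lemma IsEquivNorm.nonneg (hN : IsEquivNorm N) (x : E) : 0 ≤ N x := by
  obtain ⟨a, b, ha, _, h⟩ := hN.bounds
  exact (mul_nonneg ha.le (norm_nonneg x)).trans (h x).1

lemma inner_bounds (hN : IsEquivNorm N) {t : ℝ} (ht : 0 < t) {x : E} (hx : N x = 1) (F : Cof E) :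
    -1 ≤ ⨅ y : {y : E // y ∈ F.1 ∧ N y = 1}, (N (x + t • y.1) - 1) ∧
      ⨅ y : {y : E // y ∈ F.1 ∧ N y = 1}, (N (x + t • y.1) - 1) ≤ t := by
  refine iInf_bounds _ (by norm_num) ht.le fun y => ⟨?_, ?_⟩
  · linarith [hN.nonneg (x + t • y.1)]
  · have h1 := hN.add_le x (t • y.1)
    rw [hN.smul_eq, hx, y.2.2, abs_of_pos ht, mul_one] at h1
    linarith

lemma cof_nonempty : Nonempty (Cof E) := by
  refine ⟨⟨⊤, by simp, ?_⟩⟩
  have : Subsingleton (E ⧸ (⊤ : Submodule ℝ E)) := Submodule.Quotient.subsingleton_iff.2 rfl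
  infer_instance

/-- Unfolding the positivity of the modulus of asymptotic uniform convexity. -/
lemma modulus_extract (hN : IsEquivNorm N) {t : ℝ} (ht : 0 < t) (hpos : 0 < auModulus N t) :
    ∀ x, N x = 1 → ∃ F : Cof E, ∀ y, y ∈ F.1 → N y = 1 →
      1 + auModulus N t / 2 ≤ N (x + t • y) := by
  intro x hx
  have := cof_nonempty (E := E)
  have hlow : ∀ x' : {x : E // N x = 1},
      -1 ≤ ⨆ F : Cof E, ⨅ y : {y : E // y ∈ F.1 ∧ N y = 1}, (N (x'.1 + t • y.1) - 1) := by
    intro x'
    obtain ⟨F0⟩ := cof_nonempty (E := E)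
    have hb := bdds_of_bounds _ (inner_bounds hN ht x'.2)
    exact (inner_bounds hN ht x'.2 F0).1.trans (le_ciSup hb.2 F0)
  have hbelow : BddBelow (Set.range fun x' : {x : E // N x = 1} =>
      ⨆ F : Cof E, ⨅ y : {y : E // y ∈ F.1 ∧ N y = 1}, (N (x'.1 + t • y.1) - 1)) := by
    refine ⟨-1, ?_⟩
    rintro _ ⟨x', rfl⟩
    exact hlow x'
  have h1 : auModulus N t ≤
      ⨆ F : Cof E, ⨅ y : {y : E // y ∈ F.1 ∧ N y = 1}, (N (x + t • y.1) - 1) :=
    ciInf_le hbelow ⟨x, hx⟩
  have h2 : auModulus N t / 2 <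
      ⨆ F : Cof E, ⨅ y : {y : E // y ∈ F.1 ∧ N y = 1}, (N (x + t • y.1) - 1) := by
    linarith
  obtain ⟨F, hF⟩ := exists_lt_of_lt_ciSup h2
  refine ⟨F, fun y hy hy1 => ?_⟩
  have hb : BddBelow (Set.range fun y : {y : E // y ∈ F.1 ∧ N y = 1} => N (x + t • y.1) - 1) := by
    refine ⟨-1, ?_⟩
    rintro _ ⟨y', rfl⟩
    simp only
    linarith [hN.nonneg (x + t • y'.1)]
  have h3 := ciInf_le hb (⟨y, hy, hy1⟩ : {y : E // y ∈ F.1 ∧ N y = 1})
  simp only at h3
  linarith

end modulus

/-- Convexity of a norm along a line through a unit vector. -/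
lemma norm_convex {E : Type} [NormedAddCommGroup E] [NormedSpace ℝ E] {N : E → ℝ}
    (hN : IsEquivNorm N) (x v : E) {t0 τ c : ℝ} (ht0 : 0 < t0) (hτ : t0 ≤ τ) (hx : N x = 1)
    (hc : 0 < c) (h : 1 + c ≤ N (x + t0 • v)) : 1 + c ≤ N (x + τ • v) := by
  have hτpos : 0 < τ := by linarith
  set r := t0 / τ with hr
  have hr0 : 0 < r := div_pos ht0 hτpos
  have hr1 : r ≤ 1 := (div_le_one hτpos).2 hτ
  have hrτ : r * τ = t0 := div_mul_cancel₀ _ hτpos.ne'
  have e : x + t0 • v = (1 - r) • x + r • (x + τ • v) := by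
    rw [smul_add, smul_smul, hrτ, ← add_assoc, ← add_smul, sub_add_cancel, one_smul]
  have h1 : N (x + t0 • v) ≤ (1 - r) * 1 + r * N (x + τ • v) := by
    rw [e]
    refine (hN.add_le _ _).trans ?_
    rw [hN.smul_eq, hN.smul_eq, hx, abs_of_nonneg (by linarith), abs_of_pos hr0]
  set W := N (x + τ • v) with hW
  have h2 : c ≤ r * (W - 1) := by linarith
  by_contra hlt
  push Not at hlt
  rcases le_total (W - 1) 0 with h3 | h3
  · have := mul_nonpos_of_nonneg_of_nonpos hr0.le h3
    linarith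
  · have : r * (W - 1) ≤ 1 * (W - 1) := mul_le_mul_of_nonneg_right hr1 h3
    linarith

lemma split_eq {E : Type} [NormedAddCommGroup E] [NormedSpace ℝ E] (x y : E) {A B : ℝ}
    (hA : A ≠ 0) (hB : B ≠ 0) : x + y = A • (A⁻¹ • x + (B / A) • (B⁻¹ • y)) := by
  rw [smul_add, smul_smul, smul_smul, smul_smul, mul_inv_cancel₀ hA, one_smul]
  have : A * (B / A) * B⁻¹ = 1 := by
    field_simp
  rw [this, one_smul]

/-- One step of the growth of an asymptotically uniformly convex norm along a chain. -/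
lemma growth_step {N : X → ℝ} (hN : IsEquivNorm N) {a b : ℝ} (ha : 0 < a) (hb : 0 < b)
    (hab : ∀ x, a * ‖x‖ ≤ N x ∧ N x ≤ b * ‖x‖) {c : ℝ} (hc : 0 < c)
    (hmod : ∀ x, N x = 1 → ∃ F : Cof X, ∀ y, y ∈ F.1 → N y = 1 → 1 + c ≤ N (x + (a / (2 * b)) • y))
    (x' : X) (hx1 : a ≤ N x') (hx2 : N x' ≤ b) (β : List ℕ) (hβ : ∀ m : ℕ, (m :: β) ∈ G) :
    ∃ m : ℕ, (1 + c / 2) * N x' ≤ N (x' + coordX (m :: β)) := by
  have ht0pos : 0 < a / (2 * b) := by positivity
  have hNx : 0 < N x' := by linarith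
  have hNxx : N ((N x')⁻¹ • x') = 1 := by
    rw [hN.smul_eq, abs_of_pos (inv_pos.2 hNx), inv_mul_cancel₀ hNx.ne']
  obtain ⟨F, hF⟩ := hmod _ hNxx
  set ε := min (a / (2 * b)) (a * c / (2 * b)) with hε
  have hεpos : 0 < ε := lt_min (by positivity) (by positivity)
  obtain ⟨m, y', hy', hm⟩ := near_subspace F.1 F.2.1 F.2.2 (fun m => coordX (m :: β))
    (fun f => tendsto_eval f β) hεpos
  refine ⟨m, ?_⟩
  have hym1 : ‖coordX (m :: β)‖ = 1 := norm_coordX (hβ m)
  have hNd : N (coordX (m :: β) - y') ≤ b * ε :=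
    (hab _).2.trans (mul_le_mul_of_nonneg_left hm.le hb.le)
  have hε1 : b * ε ≤ a / 2 := by
    have : ε ≤ a / (2 * b) := min_le_left _ _
    calc b * ε ≤ b * (a / (2 * b)) := mul_le_mul_of_nonneg_left this hb.le
      _ = a / 2 := by field_simp
  have hε2 : b * ε ≤ a * c / 2 := by
    have : ε ≤ a * c / (2 * b) := min_le_right _ _
    calc b * ε ≤ b * (a * c / (2 * b)) := mul_le_mul_of_nonneg_left this hb.le
      _ = a * c / 2 := by field_simp
  have hNym : a ≤ N (coordX (m :: β)) := by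
    have := (hab (coordX (m :: β))).1
    rwa [hym1, mul_one] at this
  have hNy' : a / 2 ≤ N y' := by
    have h1 : N (coordX (m :: β)) ≤ N y' + N (coordX (m :: β) - y') := by
      have : coordX (m :: β) = y' + (coordX (m :: β) - y') := by abel
      conv_lhs => rw [this]
      exact hN.add_le _ _
    linarith
  have hy'pos : 0 < N y' := by linarith
  have hNyh : N ((N y')⁻¹ • y') = 1 := by
    rw [hN.smul_eq, abs_of_pos (inv_pos.2 hy'pos), inv_mul_cancel₀ hy'pos.ne']
  have hyhF : (N y')⁻¹ • y' ∈ F.1 := F.1.smul_mem _ hy'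
  have hW0 := hF _ hyhF hNyh
  have hτt0 : a / (2 * b) ≤ N y' / N x' := by
    rw [div_le_div_iff₀ (by positivity) hNx]
    nlinarith
  have hWc := norm_convex hN _ _ ht0pos hτt0 hNxx hc hW0
  have hN1 : N (x' + y') = N x' * N ((N x')⁻¹ • x' + (N y' / N x') • ((N y')⁻¹ • y')) := by
    conv_lhs => rw [split_eq x' y' hNx.ne' hy'pos.ne']
    rw [hN.smul_eq, abs_of_pos hNx]
  have hN2 : N (x' + y') ≤ N (x' + coordX (m :: β)) + N (coordX (m :: β) - y') := by
    have e : x' + y' = (x' + coordX (m :: β)) + (-1 : ℝ) • (coordX (m :: β) - y') := by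
      rw [smul_sub, neg_one_smul, neg_one_smul]
      abel
    conv_lhs => rw [e]
    refine (hN.add_le _ _).trans ?_
    rw [hN.smul_eq]
    simp
  have h3 := mul_le_mul_of_nonneg_left hWc hNx.le
  have h4 : a * c ≤ N x' * c := mul_le_mul_of_nonneg_right hx1 hc.le
  rw [← hN1] at h3
  linarith

/-- No equivalent norm on `X` is asymptotically uniformly convex. -/
theorem no_auc (N : X → ℝ) (hN : IsEquivNorm N) : ¬ ∀ t : ℝ, 0 < t → 0 < auModulus N t := by
  intro hall
  obtain ⟨a, b, ha, hb, hab⟩ := hN.bounds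
  set t0 := a / (2 * b) with ht0
  have ht0pos : 0 < t0 := by positivity
  have hδ := hall t0 ht0pos
  set c := auModulus N t0 / 2 with hc
  have hcpos : 0 < c := by positivity
  have hmod := modulus_extract hN ht0pos hδ
  obtain ⟨K, hK⟩ := pow_unbounded_of_one_lt (b / a) (show 1 < 1 + c / 2 by linarith)
  have hpow1 : ∀ k : ℕ, 1 ≤ (1 + c / 2) ^ k := fun k => one_le_pow₀ (by linarith)
  have hchain : ∀ k : ℕ, k ≤ K → ∃ β : List ℕ, β.length = k + 1 ∧ comp β = K ∧ β ≠ [] ∧
      a * (1 + c / 2) ^ k ≤ N (segX β) := by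
    intro k
    induction k with
    | zero =>
      intro _
      refine ⟨[K], rfl, rfl, List.cons_ne_nil _ _, ?_⟩
      have e : segX [K] = coordX [K] := by
        rw [segX_cons]
        ext y
        simp
      rw [e, pow_zero, mul_one]
      have := (hab (coordX [K])).1
      rwa [norm_coordX (singleton_mem_G K), mul_one] at this
    | succ k ih =>
      intro hk
      obtain ⟨β, h1, h2, h3, h4⟩ := ih (by omega)
      have hβ : ∀ m : ℕ, (m :: β) ∈ G := by
        intro m
        refine ⟨List.cons_ne_nil _ _, ?_⟩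
        rw [comp_cons_of_ne h3, h2, List.length_cons, h1]
        omega
      have hx1 : a ≤ N (segX β) := by
        have : a * 1 ≤ a * (1 + c / 2) ^ k := mul_le_mul_of_nonneg_left (hpow1 k) ha.le
        linarith
      have hx2 : N (segX β) ≤ b := by
        refine (hab _).2.trans ?_
        calc b * ‖segX β‖ ≤ b * 1 := mul_le_mul_of_nonneg_left (norm_segX_le β) hb.le
          _ = b := mul_one b
      obtain ⟨m, hm⟩ := growth_step hN ha hb hab hcpos hmod (segX β) hx1 hx2 β hβ
      refine ⟨m :: β, by simp [h1], by rw [comp_cons_of_ne h3, h2], List.cons_ne_nil _ _, ?_⟩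
      rw [segX_cons, pow_succ]
      refine le_trans ?_ hm
      have : 0 ≤ 1 + c / 2 := by linarith
      calc a * ((1 + c / 2) ^ k * (1 + c / 2)) = (1 + c / 2) * (a * (1 + c / 2) ^ k) := by ring
        _ ≤ (1 + c / 2) * N (segX β) := mul_le_mul_of_nonneg_left h4 this
  obtain ⟨β, _, _, _, h4⟩ := hchain K le_rfl
  have h5 : N (segX β) ≤ b := by
    refine (hab _).2.trans ?_
    calc b * ‖segX β‖ ≤ b * 1 := mul_le_mul_of_nonneg_left (norm_segX_le β) hb.le
      _ = b := mul_one b
  have h6 : b < (1 + c / 2) ^ K * a := (div_lt_iff₀ ha).1 hK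
  linarith

/-- The space `X` is infinite dimensional. -/
theorem not_finiteDimensional_X : ¬ FiniteDimensional ℝ X := by
  intro h
  have hli : LinearIndependent ℝ (fun n : ℕ => coordX [n]) := by
    rw [linearIndependent_iff']
    intro s c hc i hi
    have h1 := congrArg (fun ψ : X => ψ (eY [i])) hc
    simp only [_root_.sum_apply, smul_apply, coordX_apply, zero_apply] at h1
    rw [sum_eq_single i] at h1
    · rw [fn_eY (singleton_mem_G i)] at h1
      simpa using h1
    · intro n _ hn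
      have hne : [i] ≠ [n] := by simpa using hn.symm
      rw [fn_eY_apply_ne hne, smul_zero]
    · intro h'
      exact absurd hi h'
  exact Module.Finite.not_linearIndependent_of_infinite _ hli

/-- The space `X` is separable. -/
theorem separable_X : TopologicalSpace.SeparableSpace X := by
  set D := Submodule.span ℝ (Set.range coordX) with hD
  have hsep : TopologicalSpace.IsSeparable (D : Set X) :=
    (Set.countable_range coordX).isSeparable.span
  refine TopologicalSpace.isSeparable_univ_iff.1 (hsep.closure.mono ?_)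
  intro φ _
  rw [Metric.mem_closure_iff]
  intro ε hε
  obtain ⟨A, hA, hA'⟩ := tail φ (half_pos hε)
  refine ⟨φ.comp (resY A hA), ?_, ?_⟩
  · have e1 : φ.comp (resY A hA) = ∑ α ∈ A, φ (eY α) • coordX α := by
      ext u
      rw [ContinuousLinearMap.comp_apply, _root_.sum_apply]
      have h1 : ∀ β, β ∉ A → fn (resY A hA u) β = 0 := by
        intro β hβ
        rw [fn_resY, res_apply_not_mem _ (show β ∉ (A : Set (List ℕ)) from hβ)]
      conv_lhs => rw [y_eq_sum (resY A hA u) A h1, map_sum]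
      refine sum_congr rfl fun α hα => ?_
      rw [map_smul, fn_resY, res_apply_mem _ (show α ∈ (A : Set (List ℕ)) from hα),
        smul_apply, coordX_apply, smul_eq_mul, smul_eq_mul, mul_comm]
    rw [e1]
    exact D.sum_mem fun α _ => D.smul_mem _ (Submodule.subset_span ⟨α, rfl⟩)
  · rw [dist_eq_norm]
    have hbd : ‖φ - φ.comp (resY A hA)‖ ≤ ε / 2 := by
      refine ContinuousLinearMap.opNorm_le_bound _ (half_pos hε).le fun y => ?_
      have e : (φ - φ.comp (resY A hA)) y = φ (offY A hA y) := by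
        rw [sub_apply, ContinuousLinearMap.comp_apply]
        simp only [offY, map_sub]
      rw [e, Real.norm_eq_abs]
      refine (hA' _ ?_).trans ?_
      · intro β hβ
        rw [fn_offY, off_apply_mem _ (show β ∈ (A : Set (List ℕ)) from hβ)]
      · exact mul_le_mul_of_nonneg_left (norm_offY_le _ _ _) (half_pos hε).le
    linarith

end Vale.Agent.Lib.P069
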