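import Vale.Agent.Lib.P069.Core

/-! Initial sets, restrictions and the block inequality. -/

namespace Vale.Agent.Lib.P069

open Finset
open scoped Classical

/-- Initial sets of the tree: they contain the root and are closed under passing to tails. -/
def IsInit (A : Set (List ℕ)) : Prop := [] ∈ A ∧ ∀ m l, (m :: l) ∈ A → l ∈ A

lemma IsInit.suffix {A : Set (List ℕ)} (hA : IsInit A) {a b : List ℕ} (h : a <:+ b) (hb : b ∈ A) :
    a ∈ A := by
  induction b with
  | nil =>
    rw [List.suffix_nil.1 h]
    exact hA.1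
  | cons m l ih =>
    rcases List.suffix_cons_iff.1 h with rfl | h'
    · exact hb
    · exact ih h' (hA.2 m l hb)

/-- The deepest ancestor of a node that lies in `A`. -/
noncomputable def deep (A : Set (List ℕ)) : List ℕ → List ℕ
  | [] => []
  | m :: l => if (m :: l) ∈ A then m :: l else deep A l

section deepLemmas

variable {A : Set (List ℕ)}

lemma deep_mem (hA : IsInit A) (b : List ℕ) : deep A b ∈ A := by
  induction b with
  | nil => exact hA.1
  | cons m l ih =>
    unfold deep
    split_ifs with h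
    · exact h
    · exact ih

lemma deep_suffix (A : Set (List ℕ)) (b : List ℕ) : deep A b <:+ b := by
  induction b with
  | nil => exact List.suffix_refl _
  | cons m l ih =>
    unfold deep
    split_ifs with h
    · exact List.suffix_refl _
    · exact ih.trans (List.suffix_cons m l)

lemma deep_of_mem {b : List ℕ} (hb : b ∈ A) : deep A b = b := by
  cases b with
  | nil => rfl
  | cons m l =>
    unfold deep
    rw [if_pos hb]

lemma deep_cons_of_not_mem {m : ℕ} {l : List ℕ} (h : (m :: l) ∉ A) :
    deep A (m :: l) = deep A l := by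
  rw [deep, if_neg h]

lemma le_deep (hA : IsInit A) {a b : List ℕ} (h : a <:+ b) (ha : a ∈ A) : a <:+ deep A b := by
  induction b with
  | nil => exact h
  | cons m l ih =>
    by_cases hb : (m :: l) ∈ A
    · rw [deep_of_mem hb]
      exact h
    · rw [deep_cons_of_not_mem hb]
      rcases List.suffix_cons_iff.1 h with rfl | h'
      · exact absurd ha hb
      · exact ih h'

lemma deep_eq_of_not_mem (hA : IsInit A) {a b : List ℕ} (h : a <:+ b) (ha : a ∉ A) :
    deep A a = deep A b := by
  induction b with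
  | nil =>
    rw [List.suffix_nil.1 h]
  | cons m l ih =>
    rcases List.suffix_cons_iff.1 h with rfl | h'
    · rfl
    · have hb : (m :: l) ∉ A := fun hb => ha (hA.suffix h hb)
      rw [deep_cons_of_not_mem hb]
      exact ih h'

lemma deep_mono (hA : IsInit A) {a b : List ℕ} (h : a <:+ b) : deep A a <:+ deep A b :=
  le_deep hA ((deep_suffix A a).trans h) (deep_mem hA a)

end deepLemmas

/-- Restriction of a weight to `A`. -/
noncomputable def res (A : Set (List ℕ)) (w : Fn) : Fn := w.filter (fun β => β ∈ A)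

/-- Restriction of a weight to the complement of `A`. -/
noncomputable def off (A : Set (List ℕ)) (w : Fn) : Fn := w.filter (fun β => β ∉ A)

lemma res_add_off (A : Set (List ℕ)) (w : Fn) : res A w + off A w = w :=
  Finsupp.filter_add_filter_not w _

@[simp] lemma res_apply_mem {A : Set (List ℕ)} (w : Fn) {β : List ℕ} (h : β ∈ A) :
    res A w β = w β := Finsupp.filter_apply_pos _ _ h

@[simp] lemma res_apply_not_mem {A : Set (List ℕ)} (w : Fn) {β : List ℕ} (h : β ∉ A) :
    res A w β = 0 := Finsupp.filter_apply_neg _ _ h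

@[simp] lemma off_apply_mem {A : Set (List ℕ)} (w : Fn) {β : List ℕ} (h : β ∈ A) :
    off A w β = 0 := Finsupp.filter_apply_neg _ _ (not_not.2 h)

@[simp] lemma off_apply_not_mem {A : Set (List ℕ)} (w : Fn) {β : List ℕ} (h : β ∉ A) :
    off A w β = w β := Finsupp.filter_apply_pos _ _ h

lemma res_add (A : Set (List ℕ)) (u v : Fn) : res A (u + v) = res A u + res A v :=
  Finsupp.filter_add

lemma res_smul (A : Set (List ℕ)) (c : ℝ) (u : Fn) : res A (c • u) = c • res A u :=
  Finsupp.filter_smul

lemma off_add (A : Set (List ℕ)) (u v : Fn) : off A (u + v) = off A u + off A v :=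
  Finsupp.filter_add

lemma off_smul (A : Set (List ℕ)) (c : ℝ) (u : Fn) : off A (c • u) = c • off A u :=
  Finsupp.filter_smul

lemma pot_res {A : Set (List ℕ)} (hA : IsInit A) (w : Fn) (b : List ℕ) :
    pot b (res A w) = pot (deep A b) w := by
  induction b with
  | nil => rfl
  | cons m l ih =>
    by_cases hb : (m :: l) ∈ A
    · rw [deep_of_mem hb, pot_cons, pot_cons, res_apply_mem _ hb, ih, deep_of_mem (hA.2 m l hb)]
    · rw [deep_cons_of_not_mem hb, pot_cons, res_apply_not_mem _ hb, ih, zero_add]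

lemma pot_off {A : Set (List ℕ)} (hA : IsInit A) (w : Fn) (b : List ℕ) :
    pot b (off A w) = pot b w - pot (deep A b) w := by
  have h := congrArg (pot b) (res_add_off A w)
  rw [map_add, pot_res hA] at h
  linarith

/-- A weight vanishing on `A` has vanishing potential on `A`. -/
lemma pot_eq_zero_of_off {A : Set (List ℕ)} (hA : IsInit A) {w : Fn} (hw : ∀ β ∈ A, w β = 0)
    {l : List ℕ} (hl : l ∈ A) : pot l w = 0 := by
  induction l with
  | nil => rfl
  | cons m l ih =>
    rw [pot_cons, hw _ hl, ih (hA.2 m l hl), add_zero]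

/-- A weight supported in `A` has the potential of the deepest ancestor in `A`. -/
lemma pot_of_supp {A : Set (List ℕ)} (hA : IsInit A) {z : Fn} (hz : ∀ β, β ∉ A → z β = 0)
    (b : List ℕ) : pot b z = pot (deep A b) z := by
  have : res A z = z := by
    ext β
    by_cases h : β ∈ A
    · simp [h]
    · simp [h, hz β h]
  rw [← pot_res hA, this]

/-- A weight vanishing on `A`: its restriction to the complement of `A` is itself. -/
lemma off_eq_self {A : Set (List ℕ)} {w : Fn} (hw : ∀ β ∈ A, w β = 0) : off A w = w := by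
  ext β
  by_cases h : β ∈ A
  · simp [h, hw β h]
  · simp [h]

lemma res_eq_self {A : Set (List ℕ)} {w : Fn} (hw : ∀ β, β ∉ A → w β = 0) : res A w = w := by
  ext β
  by_cases h : β ∈ A
  · simp [h]
  · simp [h, hw β h]

lemma res_eq_zero {A : Set (List ℕ)} {w : Fn} (hw : ∀ β ∈ A, w β = 0) : res A w = 0 := by
  ext β
  by_cases h : β ∈ A
  · simp [h, hw β h]
  · simp [h]

lemma off_eq_zero {A : Set (List ℕ)} {w : Fn} (hw : ∀ β, β ∉ A → w β = 0) : off A w = 0 := by
  ext β
  by_cases h : β ∈ A
  · simp [h]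
  · simp [h, hw β h]

section block

variable {A : Set (List ℕ)}

private lemma sub_in {a b β : List ℕ} (hA : IsInit A) (hab : a <:+ b)
    (h : inSeg (deep A a) (deep A b) β) : inSeg a b β ∧ β ∈ A := by
  obtain ⟨h1, h2, h3⟩ := h
  have hβA : β ∈ A := hA.suffix h2 (deep_mem hA b)
  refine ⟨⟨?_, h2.trans (deep_suffix A b), ?_⟩, hβA⟩
  · by_cases ha : a ∈ A
    · rwa [deep_of_mem ha] at h1
    · rw [deep_eq_of_not_mem hA hab ha] at h1 h3
      exact absurd (suf_antisymm h2 h1) h3
  · intro he
    subst he
    exact h3 (deep_of_mem hβA).symm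

private lemma sub_out {a b β : List ℕ} (hA : IsInit A) (hab : a <:+ b)
    (h : inSeg (if a ∈ A then deep A b else a) b β) : inSeg a b β ∧ β ∉ A := by
  by_cases ha : a ∈ A
  · rw [if_pos ha] at h
    obtain ⟨h1, h2, h3⟩ := h
    have hβ : β ∉ A := fun hβ => h3 (suf_antisymm (le_deep hA h2 hβ) h1)
    refine ⟨⟨(le_deep hA hab ha).trans h1, h2, ?_⟩, hβ⟩
    rintro rfl
    exact hβ ha
  · rw [if_neg ha] at h
    exact ⟨h, fun hβ => ha (hA.suffix h.1 hβ)⟩

lemma block_pair (hA : IsInit A) (w : Fn) {S₁ S₂ : Finset (List ℕ × List ℕ)} (h₁ : Fam S₁)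
    (h₂ : Fam S₂) : val (res A w) S₁ + val (off A w) S₂ ≤ nrm w ^ 2 := by
  set a : (List ℕ × List ℕ) ⊕ (List ℕ × List ℕ) → List ℕ :=
    Sum.elim (fun σ => deep A σ.1) (fun σ => if σ.1 ∈ A then deep A σ.2 else σ.1) with ha
  set b : (List ℕ × List ℕ) ⊕ (List ℕ × List ℕ) → List ℕ :=
    Sum.elim (fun σ => deep A σ.2) (fun σ => σ.2) with hb
  have key := sum_le_nrm_sq (S₁.disjSum S₂) a b ?_ ?_ w
  · rw [sum_disjSum] at key
    refine le_trans (le_of_eq ?_) key
    unfold val
    congr 1
    · refine sum_congr rfl fun σ _ => ?_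
      simp only [ha, hb, Sum.elim_inl, pot_res hA]
    · refine sum_congr rfl fun σ hσ => ?_
      simp only [ha, hb, Sum.elim_inr, pot_off hA]
      by_cases h : σ.1 ∈ A
      · rw [if_pos h, deep_of_mem h]
        congr 1
        ring
      · rw [if_neg h, deep_eq_of_not_mem hA (h₂.1 σ hσ) h]
        congr 1
        ring
  · intro i hi
    rcases i with σ | σ
    · exact deep_mono hA (h₁.1 σ (by simpa using hi))
    · have hσ : σ ∈ S₂ := by simpa using hi
      simp only [ha, hb, Sum.elim_inr]
      split_ifs with h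
      · exact deep_suffix A _
      · exact h₂.1 σ hσ
  · intro i hi j hj hne β hi' hj'
    rcases i with σ | σ <;> rcases j with τ | τ
    · have hσ : σ ∈ S₁ := by simpa using hi
      have hτ : τ ∈ S₁ := by simpa using hj
      have e1 := sub_in hA (h₁.1 σ hσ) hi'
      have e2 := sub_in hA (h₁.1 τ hτ) hj'
      exact h₁.2 σ hσ τ hτ (fun he => hne (by rw [he])) β e1.1 e2.1
    · have hσ : σ ∈ S₁ := by simpa using hi
      have hτ : τ ∈ S₂ := by simpa using hj
      exact (sub_out hA (h₂.1 τ hτ) hj').2 (sub_in hA (h₁.1 σ hσ) hi').2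
    · have hσ : σ ∈ S₂ := by simpa using hi
      have hτ : τ ∈ S₁ := by simpa using hj
      exact (sub_out hA (h₂.1 σ hσ) hi').2 (sub_in hA (h₁.1 τ hτ) hj').2
    · have hσ : σ ∈ S₂ := by simpa using hi
      have hτ : τ ∈ S₂ := by simpa using hj
      have e1 := sub_out hA (h₂.1 σ hσ) hi'
      have e2 := sub_out hA (h₂.1 τ hτ) hj'
      exact h₂.2 σ hσ τ hτ (fun he => hne (by rw [he])) β e1.1 e2.1

/-- The block inequality. -/
lemma block_le (hA : IsInit A) (w : Fn) : nrm (res A w) ^ 2 + nrm (off A w) ^ 2 ≤ nrm w ^ 2 := by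
  have h1 : ∀ S₂, Fam S₂ → val (off A w) S₂ ≤ nrm w ^ 2 - nrm (res A w) ^ 2 := by
    intro S₂ h₂
    have : nrm (res A w) ^ 2 ≤ nrm w ^ 2 - val (off A w) S₂ :=
      nrm_sq_le fun S₁ h₁ => by linarith [block_pair hA w h₁ h₂]
    linarith
  have := nrm_sq_le h1
  linarith

lemma nrm_res_le (hA : IsInit A) (w : Fn) : nrm (res A w) ≤ nrm w :=
  abs_le_of_sq_le_sq' (by nlinarith [block_le hA w, sq_nonneg (nrm (off A w))]) (nrm_nonneg w) |>.2

lemma nrm_off_le (hA : IsInit A) (w : Fn) : nrm (off A w) ≤ nrm w :=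
  abs_le_of_sq_le_sq' (by nlinarith [block_le hA w, sq_nonneg (nrm (res A w))]) (nrm_nonneg w) |>.2

end block

/-- The first node outside `A` on the path from the root to a node. -/
noncomputable def hang (A : Set (List ℕ)) : List ℕ → List ℕ
  | [] => []
  | m :: l => if l ∈ A then m :: l else hang A l

section hangLemmas

variable {A : Set (List ℕ)}

lemma hang_cons_of_mem {m : ℕ} {l : List ℕ} (h : l ∈ A) : hang A (m :: l) = m :: l := by
  rw [hang, if_pos h]

lemma hang_cons_of_not_mem {m : ℕ} {l : List ℕ} (h : l ∉ A) : hang A (m :: l) = hang A l := by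
  rw [hang, if_neg h]

lemma hang_not_mem (hA : IsInit A) {b : List ℕ} (hb : b ∉ A) : hang A b ∉ A := by
  induction b with
  | nil => exact absurd hA.1 hb
  | cons m l ih =>
    by_cases hl : l ∈ A
    · rwa [hang_cons_of_mem hl]
    · rw [hang_cons_of_not_mem hl]
      exact ih hl

lemma hang_suffix (A : Set (List ℕ)) (b : List ℕ) : hang A b <:+ b := by
  induction b with
  | nil => exact List.suffix_refl _
  | cons m l ih =>
    by_cases hl : l ∈ A
    · rw [hang_cons_of_mem hl]
    · rw [hang_cons_of_not_mem hl]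
      exact ih.trans (List.suffix_cons m l)

lemma hang_eq_of_not_mem (hA : IsInit A) {a b : List ℕ} (h : a <:+ b) (ha : a ∉ A) :
    hang A a = hang A b := by
  induction b with
  | nil => rw [List.suffix_nil.1 h]
  | cons m l ih =>
    rcases List.suffix_cons_iff.1 h with rfl | h'
    · rfl
    · have hl : l ∉ A := fun hl => ha (hA.suffix h' hl)
      rw [hang_cons_of_not_mem hl]
      exact ih h'

lemma deep_eq_hang_tail (hA : IsInit A) {b : List ℕ} (hb : b ∉ A) :
    deep A b = (hang A b).tail := by
  induction b with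
  | nil => exact absurd hA.1 hb
  | cons m l ih =>
    rw [deep_cons_of_not_mem hb]
    by_cases hl : l ∈ A
    · rw [hang_cons_of_mem hl, deep_of_mem hl]
      rfl
    · rw [hang_cons_of_not_mem hl]
      exact ih hl

/-- For a segment leaving `A`, the first node off `A` lies in the segment. -/
lemma hang_inSeg (hA : IsInit A) {a b : List ℕ} (h : a <:+ b) (ha : a ∈ A) (hb : b ∉ A) :
    inSeg a b (hang A b) := by
  have hc := hang_not_mem hA hb
  refine ⟨?_, hang_suffix A b, ?_⟩
  · rcases List.suffix_or_suffix_of_suffix h (hang_suffix A b) with h' | h'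
    · exact h'
    · exact absurd (hA.suffix h' ha) hc
  · rintro rfl
    exact hc ha

end hangLemmas

end Vale.Agent.Lib.P069
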