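import Vale.Agent.Lib.P069.Key

/-! Truncation of potentials, pieces of a weight and the selection lemma. -/

namespace Vale.Agent.Lib.P069

open Finset
open scoped Classical

/-- The weight whose potential is the positive part of the potential of `u`. -/
noncomputable def tr (u : Fn) : Fn :=
  Finsupp.onFinset u.support
    (fun α => match α with
      | [] => 0
      | m :: l => max (pot (m :: l) u) 0 - max (pot l u) 0)
    (by
      intro α hα
      rw [Finsupp.mem_support_iff]
      cases α with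
      | nil => exact absurd rfl hα
      | cons m l =>
        intro h0
        apply hα
        simp [h0])

@[simp] lemma tr_nil (u : Fn) : tr u [] = 0 := rfl

@[simp] lemma tr_cons (u : Fn) (m : ℕ) (l : List ℕ) :
    tr u (m :: l) = max (pot (m :: l) u) 0 - max (pot l u) 0 := rfl

lemma tr_ne_zero {u : Fn} {α : List ℕ} (h : tr u α ≠ 0) : u α ≠ 0 := by
  intro h0
  apply h
  cases α with
  | nil => rfl
  | cons m l => simp [h0]

lemma pot_tr (u : Fn) (α : List ℕ) : pot α (tr u) = max (pot α u) 0 := by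
  induction α with
  | nil => simp
  | cons m l ih =>
    rw [pot_cons, ih, tr_cons]
    ring

lemma nrm_tr_le (u : Fn) : nrm (tr u) ≤ nrm u := by
  refine nrm_le_of_incr fun a b _ => ?_
  rw [pot_tr, pot_tr]
  have := abs_max_sub_max_le_abs (pot b u) (pot a u) 0
  exact this

lemma tr_sub (u : Fn) (hu : u [] = 0) : tr u - tr ((-1 : ℝ) • u) = u := by
  ext α
  cases α with
  | nil => simp [hu]
  | cons m l =>
    simp only [Finsupp.coe_sub, Pi.sub_apply, tr_cons, map_smul, smul_eq_mul]
    have h1 : ∀ x : ℝ, max x 0 - max (-1 * x) 0 = x := by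
      intro x
      rcases le_total x 0 with h | h
      · rw [max_eq_right h, max_eq_left (by linarith)]
        ring
      · rw [max_eq_left h, max_eq_right (by linarith)]
        ring
    have h2 := h1 (pot (m :: l) u)
    have h3 := h1 (pot l u)
    rw [pot_cons] at h2 ⊢
    linarith

/-- The piece of a weight lying over the hanging root `c`. -/
noncomputable def part (A : Set (List ℕ)) (w : Fn) (c : List ℕ) : Fn :=
  w.filter (fun α => α ∉ A ∧ hang A α = c)

lemma part_apply_pos {A : Set (List ℕ)} (w : Fn) {c α : List ℕ} (h : α ∉ A ∧ hang A α = c) :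
    part A w c α = w α := Finsupp.filter_apply_pos _ _ h

lemma part_apply_neg {A : Set (List ℕ)} (w : Fn) {c α : List ℕ} (h : ¬ (α ∉ A ∧ hang A α = c)) :
    part A w c α = 0 := Finsupp.filter_apply_neg _ _ h

lemma part_ne_zero {A : Set (List ℕ)} {w : Fn} {c α : List ℕ} (h : part A w c α ≠ 0) : w α ≠ 0 := by
  by_cases hc : α ∉ A ∧ hang A α = c
  · rwa [part_apply_pos w hc] at h
  · exact absurd (part_apply_neg w hc) h

lemma pot_part {A : Set (List ℕ)} (hA : IsInit A) {w : Fn} (hw : ∀ β ∈ A, w β = 0)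
    (c α : List ℕ) :
    pot α (part A w c) = if α ∉ A ∧ hang A α = c then pot α w else 0 := by
  induction α with
  | nil =>
    rw [if_neg (fun h => h.1 hA.1)]
    rfl
  | cons m l ih =>
    rw [pot_cons, ih]
    by_cases hml : (m :: l) ∈ A
    · have hl : l ∈ A := hA.2 m l hml
      rw [if_neg (fun h => h.1 hl), if_neg (fun h => h.1 hml), add_zero]
      exact part_apply_neg w (fun h => h.1 hml)
    · by_cases hl : l ∈ A
      · rw [if_neg (fun h => h.1 hl), add_zero, pot_cons, pot_eq_zero_of_off hA hw hl, add_zero]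
        rw [hang_cons_of_mem hl]
        by_cases hc : m :: l = c
        · rw [if_pos ⟨hml, hc⟩]
          exact part_apply_pos w ⟨hml, by rw [hang_cons_of_mem hl, hc]⟩
        · rw [if_neg (fun h => hc h.2)]
          refine part_apply_neg w (fun h => hc ?_)
          rw [← h.2, hang_cons_of_mem hl]
      · rw [hang_cons_of_not_mem hl, pot_cons]
        by_cases hc : hang A l = c
        · rw [if_pos ⟨hl, hc⟩, if_pos ⟨hml, hc⟩,
            part_apply_pos w ⟨hml, by rw [hang_cons_of_not_mem hl, hc]⟩]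
        · rw [if_neg (fun h => hc h.2), if_neg (fun h => hc h.2), add_zero]
          refine part_apply_neg w (fun h => hc ?_)
          rw [← h.2, hang_cons_of_not_mem hl]

lemma sum_part {A : Set (List ℕ)} {w : Fn} (hw : ∀ β ∈ A, w β = 0) :
    ∑ c ∈ w.support.image (hang A), part A w c = w := by
  ext α
  rw [Finsupp.finsetSum_apply]
  by_cases hα : w α = 0
  · rw [hα]
    refine sum_eq_zero fun c _ => ?_
    by_contra h
    exact part_ne_zero h hα
  · have hαA : α ∉ A := fun h => hα (hw α h)
    rw [sum_eq_single (hang A α)]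
    · exact part_apply_pos w ⟨hαA, rfl⟩
    · intro c _ hne
      exact part_apply_neg w (fun h => hne h.2.symm)
    · intro h
      exact absurd (mem_image_of_mem _ (Finsupp.mem_support_iff.2 hα)) h

lemma part_eq_zero {A : Set (List ℕ)} {w : Fn} {c : List ℕ}
    (hc : c ∉ w.support.image (hang A)) : part A w c = 0 := by
  ext α
  rw [Finsupp.coe_zero, Pi.zero_apply]
  by_contra h
  have h1 := part_ne_zero h
  have h2 : hang A α = c := by
    by_contra hne
    exact h (part_apply_neg w (fun h' => hne h'.2))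
  exact hc (h2 ▸ mem_image_of_mem _ (Finsupp.mem_support_iff.2 h1))

lemma part_nil {A : Set (List ℕ)} (hA : IsInit A) (w : Fn) (c : List ℕ) : part A w c [] = 0 :=
  part_apply_neg w (fun h => h.1 hA.1)

/-- The squares of the seminorms of the pieces sum to at most the square of the seminorm. -/
lemma sum_nrm_part_le {A : Set (List ℕ)} (hA : IsInit A) (C : Finset (List ℕ)) :
    ∀ u : Fn, ∑ c ∈ C, nrm (part A u c) ^ 2 ≤ nrm u ^ 2 := by
  induction C using Finset.induction_on with
  | empty =>
    intro u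
    simpa using sq_nonneg (nrm u)
  | insert c0 C' hc0 ih =>
    intro u
    rw [sum_insert hc0]
    set A' : Set (List ℕ) := {α | α ∈ A ∨ hang A α = c0} with hA'
    have hinit : IsInit A' := by
      refine ⟨Or.inl hA.1, ?_⟩
      rintro m l (h | h)
      · exact Or.inl (hA.2 m l h)
      · by_cases hl : l ∈ A
        · exact Or.inl hl
        · right
          rwa [hang_cons_of_not_mem hl] at h
    have e1 : part A u c0 = off A (res A' u) := by
      ext α
      by_cases hαA : α ∈ A
      · rw [off_apply_mem _ hαA]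
        exact part_apply_neg u (fun h => h.1 hαA)
      · rw [off_apply_not_mem _ hαA]
        by_cases hc : hang A α = c0
        · rw [part_apply_pos u ⟨hαA, hc⟩, res_apply_mem u (Or.inr hc)]
        · rw [part_apply_neg u (fun h => hc h.2), res_apply_not_mem u]
          rintro (h | h)
          · exact hαA h
          · exact hc h
    have e2 : ∀ c ∈ C', part A u c = part A (off A' u) c := by
      intro c hc
      have hne : c ≠ c0 := fun h => hc0 (h ▸ hc)
      ext α
      by_cases h : α ∉ A ∧ hang A α = c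
      · rw [part_apply_pos u h, part_apply_pos _ h, off_apply_not_mem]
        rintro (h' | h')
        · exact h.1 h'
        · exact hne (h.2.symm.trans h')
      · rw [part_apply_neg u h, part_apply_neg _ h]
    have h1 : nrm (part A u c0) ≤ nrm (res A' u) := by
      rw [e1]
      exact nrm_off_le hA _
    have h2 : ∑ c ∈ C', nrm (part A u c) ^ 2 ≤ nrm (off A' u) ^ 2 := by
      rw [sum_congr rfl (fun c hc => by rw [e2 c hc])]
      exact ih _
    have h3 := block_le hinit u
    have h4 : nrm (part A u c0) ^ 2 ≤ nrm (res A' u) ^ 2 :=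
      pow_le_pow_left₀ (nrm_nonneg _) h1 2
    linarith

/-- The transformation of the potentials in the selection. -/
noncomputable def phi (κ χ y : ℝ) : ℝ := κ * max (χ * y) 0

lemma phi_zero (κ χ : ℝ) : phi κ χ 0 = 0 := by simp [phi]

lemma abs_of_sign {κ : ℝ} (h : κ = 1 ∨ κ = -1) : |κ| = 1 := by
  rcases h with rfl | rfl <;> simp

lemma abs_phi_le {κ χ : ℝ} (hκ : κ = 1 ∨ κ = -1) (hχ : χ = 1 ∨ χ = -1) (y : ℝ) :
    |phi κ χ y| ≤ |y| := by
  unfold phi
  rw [abs_mul, abs_of_sign hκ, one_mul]
  rw [abs_of_nonneg (le_max_right _ _)]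
  refine max_le ?_ (abs_nonneg _)
  calc χ * y ≤ |χ * y| := le_abs_self _
    _ = |y| := by rw [abs_mul, abs_of_sign hχ, one_mul]

lemma abs_phi_sub_le {κ χ : ℝ} (hκ : κ = 1 ∨ κ = -1) (hχ : χ = 1 ∨ χ = -1) (y y' : ℝ) :
    |phi κ χ y - phi κ χ y'| ≤ |y - y'| := by
  unfold phi
  rw [← mul_sub, abs_mul, abs_of_sign hκ, one_mul]
  have := abs_max_sub_max_le_abs (χ * y) (χ * y') 0
  refine this.trans (le_of_eq ?_)
  rw [← mul_sub, abs_mul, abs_of_sign hχ, one_mul]

lemma pot_piece (κ χ : ℝ) (q : Fn) (α : List ℕ) :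
    pot α (κ • tr (χ • q)) = phi κ χ (pot α q) := by
  rw [map_smul, pot_tr, map_smul, smul_eq_mul, smul_eq_mul]
  rfl

/-- The potential of the combination of the truncated pieces. -/
lemma pot_combo {A : Set (List ℕ)} (hA : IsInit A) {w : Fn} (hw : ∀ β ∈ A, w β = 0)
    (C : Finset (List ℕ)) (κ χ : List ℕ → ℝ) (α : List ℕ) :
    pot α (∑ c ∈ C, κ c • tr (χ c • part A w c)) =
      if hang A α ∈ C then phi (κ (hang A α)) (χ (hang A α)) (pot α w) else 0 := by
  rw [map_sum]
  simp only [pot_piece, pot_part hA hw]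
  by_cases hα : α ∈ A
  · have h0 : pot α w = 0 := pot_eq_zero_of_off hA hw hα
    rw [h0, phi_zero, ite_self]
    refine sum_eq_zero fun c _ => ?_
    rw [if_neg (fun h => h.1 hα), phi_zero]
  · by_cases hC : hang A α ∈ C
    · rw [if_pos hC, sum_eq_single (hang A α)]
      · rw [if_pos ⟨hα, rfl⟩]
      · intro c _ hne
        rw [if_neg (fun h => hne h.2.symm), phi_zero]
      · intro h
        exact absurd hC h
    · rw [if_neg hC]
      refine sum_eq_zero fun c hc => ?_
      have hn : ¬ (α ∉ A ∧ hang A α = c) := fun h => hC (h.2 ▸ hc)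
      rw [if_neg hn, phi_zero]

/-- The selection lemma. -/
theorem select {A : Set (List ℕ)} (hA : IsInit A) {z w : Fn} (hz : ∀ β, β ∉ A → z β = 0)
    (hw : ∀ β ∈ A, w β = 0) (g : Fn →ₗ[ℝ] ℝ) {s : ℝ} (hs : 0 ≤ s) :
    ∃ (e : ℝ) (v : Fn), (e = 1 ∨ e = -1) ∧ (∀ β, v β ≠ 0 → w β ≠ 0) ∧ nrm v ≤ nrm w ∧
      g w ≤ 2 * g v ∧ nrm (z + (e * s) • v) ^ 2 ≤ nrm z ^ 2 + 3 * s ^ 2 * nrm w ^ 2 := by
  set C := w.support.image (hang A) with hCdef
  set p : List ℕ → Fn := fun c => part A w c with hp
  set τ : List ℕ → ℝ := fun c => s * nrm (p c) with hτ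
  set ς : List ℕ → ℝ := fun c => sgnOf z c.tail (τ c) with hς
  have hς1 : ∀ c, ς c = 1 ∨ ς c = -1 := fun c => sgnOf_cases _ _ _
  have hτ0 : ∀ c, 0 ≤ τ c := fun c => mul_nonneg hs (nrm_nonneg _)
  set a : List ℕ → ℝ := fun c => g (tr (p c)) with ha
  set b : List ℕ → ℝ := fun c => g (tr ((-1 : ℝ) • p c)) with hb
  have hab : ∀ c, a c - b c = g (p c) := by
    intro c
    rw [ha, hb]
    simp only
    rw [← map_sub, tr_sub _ (part_nil hA w c)]
  -- the choice for a given sign
  set κ : ℝ → List ℕ → ℝ := fun e c => -e * ς c with hκ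
  set χ : ℝ → List ℕ → ℝ := fun e c => if κ e c * b c ≤ κ e c * a c then 1 else -1 with hχ
  set V : ℝ → Fn := fun e => ∑ c ∈ C, κ e c • tr (χ e c • p c) with hV
  have hκ1 : ∀ e, (e = 1 ∨ e = -1) → ∀ c, κ e c = 1 ∨ κ e c = -1 := by
    intro e he c
    simp only [hκ]
    rcases he with rfl | rfl <;> rcases hς1 c with h | h <;> rw [h] <;> norm_num
  have hχ1 : ∀ e c, χ e c = 1 ∨ χ e c = -1 := by
    intro e c
    simp only [hχ]
    split_ifs
    · exact Or.inl rfl
    · exact Or.inr rfl
  have hgpiece : ∀ e c, g (κ e c • tr (χ e c • p c)) = max (κ e c * a c) (κ e c * b c) := by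
    intro e c
    rw [map_smul, smul_eq_mul]
    simp only [hχ]
    split_ifs with h
    · rw [one_smul, max_eq_left h]
    · rw [max_eq_right (not_le.1 h).le]
  have hgV : ∀ e, g (V e) = ∑ c ∈ C, max (κ e c * a c) (κ e c * b c) := by
    intro e
    simp only [hV, map_sum, hgpiece]
  -- two signs together dominate `g w`
  have hsum : g w ≤ g (V 1) + g (V (-1)) := by
    rw [hgV, hgV, ← sum_add_distrib]
    have hw' : g w = ∑ c ∈ C, g (p c) := by
      rw [← map_sum]
      rw [hp]
      simp only
      rw [hCdef, sum_part hw]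
    rw [hw']
    refine sum_le_sum fun c _ => ?_
    rw [← hab c]
    simp only [hκ]
    rcases hς1 c with h | h <;> rw [h]
    · have e1 := le_max_right (-1 * 1 * a c) (-1 * 1 * b c)
      have e2 := le_max_left (- -1 * 1 * a c) (- -1 * 1 * b c)
      linarith
    · have e1 := le_max_left (-1 * -1 * a c) (-1 * -1 * b c)
      have e2 := le_max_right (- -1 * -1 * a c) (- -1 * -1 * b c)
      linarith
  obtain ⟨e, he, hge⟩ : ∃ e : ℝ, (e = 1 ∨ e = -1) ∧ g w ≤ 2 * g (V e) := by
    by_cases h : g w ≤ 2 * g (V 1)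
    · exact ⟨1, Or.inl rfl, h⟩
    · refine ⟨-1, Or.inr rfl, ?_⟩
      push Not at h
      linarith
  -- the potential of the selected weight
  have hpotV : ∀ α, pot α (V e) =
      if hang A α ∈ C then phi (κ e (hang A α)) (χ e (hang A α)) (pot α w) else 0 := by
    intro α
    exact pot_combo hA hw C (κ e) (χ e) α
  have habsV : ∀ α, |pot α (V e)| ≤ |pot α w| := by
    intro α
    rw [hpotV]
    split_ifs
    · exact abs_phi_le (hκ1 e he _) (hχ1 e _) _
    · simp
  have hsuppV : ∀ β, V e β ≠ 0 → w β ≠ 0 := by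
    intro β hβ
    simp only [hV] at hβ
    rw [Finsupp.finsetSum_apply] at hβ
    obtain ⟨c, _, hc⟩ := exists_ne_zero_of_sum_ne_zero hβ
    rw [Finsupp.smul_apply, smul_eq_mul] at hc
    have h1 := tr_ne_zero (right_ne_zero_of_mul hc)
    rw [Finsupp.smul_apply, smul_eq_mul] at h1
    exact part_ne_zero (right_ne_zero_of_mul h1)
  have hnrmV : nrm (V e) ≤ nrm w := by
    refine nrm_le_of_incr fun x y hxy => ?_
    by_cases hx : x ∈ A
    · have h1 : pot x w = 0 := pot_eq_zero_of_off hA hw hx
      have h2 : pot x (V e) = 0 := by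
        have := habsV x
        rw [h1, abs_zero] at this
        exact abs_eq_zero.1 (le_antisymm this (abs_nonneg _))
      rw [h1, h2, sub_zero, sub_zero]
      exact habsV y
    · have hh := hang_eq_of_not_mem hA hxy hx
      rw [hpotV, hpotV, hh]
      split_ifs
      · exact abs_phi_sub_le (hκ1 e he _) (hχ1 e _) _ _
      · simp
  refine ⟨e, V e, he, hsuppV, hnrmV, hge, ?_⟩
  -- apply the key inequality
  set v := (e * s) • V e with hvdef
  have hes : |e * s| = s := by rw [abs_mul, abs_of_sign he, one_mul, abs_of_nonneg hs]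
  have hvA : ∀ β ∈ A, v β = 0 := by
    intro β hβ
    rw [hvdef, Finsupp.smul_apply]
    by_cases h : V e β = 0
    · rw [h, smul_zero]
    · exact absurd (hw β hβ) (hsuppV β h)
  have hC0 : ∀ c, c ∉ C → τ c = 0 := by
    intro c hc
    simp only [hτ, hp]
    rw [part_eq_zero hc, nrm_zero, mul_zero]
  have hpotv : ∀ α, pot α v = (e * s) * pot α (V e) := by
    intro α
    rw [hvdef, map_smul, smul_eq_mul]
  have hbd : ∀ α, α ∉ A → |pot α v| ≤ τ (hang A α) := by
    intro α hα
    rw [hpotv, abs_mul, hes]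
    refine mul_le_mul_of_nonneg_left ?_ hs
    refine (habsV α).trans ?_
    have h := abs_pot_le_nrm (p (hang A α)) α
    simp only [hp] at h ⊢
    rwa [pot_part hA hw, if_pos ⟨hα, rfl⟩] at h
  have hsg : ∀ α, α ∉ A → sgnOf z (hang A α).tail (τ (hang A α)) * pot α v ≤ 0 := by
    intro α _
    rw [hpotv, hpotV]
    change ς (hang A α) * _ ≤ 0
    split_ifs
    · simp only [phi, hκ]
      have h0 : 0 ≤ max (χ e (hang A α) * pot α w) 0 := le_max_right _ _
      have h1 : ς (hang A α) * ς (hang A α) = 1 := by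
        rcases hς1 (hang A α) with h | h <;> rw [h] <;> norm_num
      have h2 : e * e = 1 := by
        rcases he with h | h <;> rw [h] <;> norm_num
      have : ς (hang A α) * (e * s * (-e * ς (hang A α) * max (χ e (hang A α) * pot α w) 0))
          = -((ς (hang A α) * ς (hang A α)) * (e * e) * s * max (χ e (hang A α) * pot α w) 0) := by
        ring
      rw [this, h1, h2]
      nlinarith [mul_nonneg hs h0]
    · simp
  have hkey := key_ineq hA hz hvA hτ0 C hC0 hbd hsg
  have hnv : nrm v ≤ s * nrm w := by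
    rw [hvdef, nrm_smul, hes]
    exact mul_le_mul_of_nonneg_left hnrmV hs
  have hnv2 : nrm v ^ 2 ≤ (s * nrm w) ^ 2 := pow_le_pow_left₀ (nrm_nonneg _) hnv 2
  have hτsum : ∑ c ∈ C, τ c ^ 2 ≤ s ^ 2 * nrm w ^ 2 := by
    have : ∑ c ∈ C, τ c ^ 2 = s ^ 2 * ∑ c ∈ C, nrm (p c) ^ 2 := by
      rw [mul_sum]
      refine sum_congr rfl fun c _ => ?_
      simp only [hτ]
      ring
    rw [this]
    exact mul_le_mul_of_nonneg_left (sum_nrm_part_le hA C w) (sq_nonneg s)
  rw [mul_pow] at hnv2
  nlinarith

end Vale.Agent.Lib.P069
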