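import Vale.Agent.Lib.P069.Select

/-! The normed space `Y` of finitely supported weights on the well founded tree and its dual `X`. -/

namespace Vale.Agent.Lib.P069

open Finset
open scoped Classical

/-- The index of the component of a node: the last entry of the list. -/
def comp : List ℕ → ℕ
  | [] => 0
  | [n] => n
  | _ :: k :: l => comp (k :: l)

lemma comp_cons_of_ne {m : ℕ} {l : List ℕ} (h : l ≠ []) : comp (m :: l) = comp l := by
  cases l with
  | nil => exact absurd rfl h
  | cons k t => rfl

lemma comp_of_suffix {a b : List ℕ} (h : a <:+ b) (ha : a ≠ []) : comp a = comp b := by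
  induction b with
  | nil => exact absurd (List.suffix_nil.1 h) ha
  | cons m l ih =>
    rcases List.suffix_cons_iff.1 h with rfl | h'
    · rfl
    · have hl : l ≠ [] := by
        rintro rfl
        exact ha (List.suffix_nil.1 h')
      rw [comp_cons_of_ne hl]
      exact ih h'

/-- The good nodes: nonempty lists whose length is at most the last entry plus one. -/
def G : Set (List ℕ) := {l | l ≠ [] ∧ l.length ≤ comp l + 1}

lemma nil_not_mem_G : [] ∉ G := fun h => h.1 rfl

/-- The normed space of finitely supported weights on the good nodes. -/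
def Y : Type := Finsupp.supported ℝ ℝ G

noncomputable instance : AddCommGroup Y :=
  inferInstanceAs (AddCommGroup (Finsupp.supported ℝ ℝ G))

noncomputable instance : Module ℝ Y := inferInstanceAs (Module ℝ (Finsupp.supported ℝ ℝ G))

/-- The underlying weight. -/
def fn (y : Y) : Fn := Subtype.val y

@[simp] lemma fn_add (x y : Y) : fn (x + y) = fn x + fn y := rfl
@[simp] lemma fn_sub (x y : Y) : fn (x - y) = fn x - fn y := rfl
@[simp] lemma fn_smul (c : ℝ) (x : Y) : fn (c • x) = c • fn x := rfl
@[simp] lemma fn_zero : fn 0 = 0 := rfl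
@[simp] lemma fn_neg (x : Y) : fn (-x) = -fn x := rfl

lemma fn_inj {x y : Y} (h : fn x = fn y) : x = y := Subtype.ext h

lemma fn_mem (y : Y) {β : List ℕ} (h : fn y β ≠ 0) : β ∈ G := by
  by_contra hβ
  exact h ((Finsupp.mem_supported' ℝ (fn y)).1 y.2 β hβ)

lemma fn_nil (y : Y) : fn y [] = 0 := by
  by_contra h
  exact nil_not_mem_G (fn_mem y h)

/-- Build an element of `Y`. -/
def mkY (w : Fn) (h : ∀ β, w β ≠ 0 → β ∈ G) : Y :=
  ⟨w, (Finsupp.mem_supported' ℝ w).2 fun β hβ => by
    by_contra h0
    exact hβ (h β h0)⟩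

@[simp] lemma fn_mkY (w : Fn) (h : ∀ β, w β ≠ 0 → β ∈ G) : fn (mkY w h) = w := rfl

noncomputable instance : Norm Y := ⟨fun y => nrm (fn y)⟩

lemma norm_def (y : Y) : ‖y‖ = nrm (fn y) := rfl

lemma coreY : NormedSpace.Core ℝ Y where
  norm_nonneg x := nrm_nonneg _
  norm_smul c x := by
    rw [norm_def, norm_def, fn_smul, nrm_smul, Real.norm_eq_abs]
  norm_triangle x y := nrm_add_le _ _
  norm_eq_zero_iff x := by
    constructor
    · intro h
      apply fn_inj
      ext β
      rw [fn_zero, Finsupp.coe_zero, Pi.zero_apply]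
      cases β with
      | nil => exact fn_nil x
      | cons m l =>
        have h1 := abs_coord_le_nrm (fn x) m l
        rw [norm_def] at h
        rw [h] at h1
        exact abs_eq_zero.1 (le_antisymm h1 (abs_nonneg _))
    · rintro rfl
      rw [norm_def, fn_zero, nrm_zero]

noncomputable instance : NormedAddCommGroup Y := NormedAddCommGroup.ofCore coreY

noncomputable instance : NormedSpace ℝ Y := NormedSpace.ofCore coreY

/-- The space of the main theorem: the dual of `Y`. -/
abbrev X : Type := StrongDual ℝ Y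

/-- The inclusion of `Y` in all weights, as a linear map. -/
def fnL : Y →ₗ[ℝ] Fn where
  toFun := fn
  map_add' _ _ := rfl
  map_smul' _ _ := rfl

/-- Restriction of a weight to the good nodes, as an element of `Y`. -/
noncomputable def proj : Fn →ₗ[ℝ] Y where
  toFun w := mkY (res G w) (fun β hβ => by
    by_contra h
    exact hβ (res_apply_not_mem w h))
  map_add' u v := fn_inj (by simp [res_add])
  map_smul' c u := fn_inj (by simp [res_smul])

lemma fn_proj (w : Fn) : fn (proj w) = res G w := rfl

lemma proj_fn (y : Y) : proj (fn y) = y := by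
  apply fn_inj
  rw [fn_proj]
  exact res_eq_self fun β hβ => by
    by_contra h
    exact hβ (fn_mem y h)

lemma fn_proj_of_supp {w : Fn} (h : ∀ β, w β ≠ 0 → β ∈ G) : fn (proj w) = w := by
  rw [fn_proj]
  exact res_eq_self fun β hβ => by
    by_contra h0
    exact hβ (h β h0)

/-- The unit vectors of `Y`. -/
noncomputable def eY (α : List ℕ) : Y := proj (Finsupp.single α 1)

lemma nrm_single_le (α : List ℕ) : nrm (Finsupp.single α 1) ≤ 1 := by
  refine nrm_le_of_sq zero_le_one fun S hS => ?_
  refine (val_le_bound _ hS).trans ?_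
  rw [Finsupp.support_single _ one_ne_zero]
  simp

lemma fn_eY {α : List ℕ} (h : α ∈ G) : fn (eY α) = Finsupp.single α 1 := by
  apply fn_proj_of_supp
  intro β hβ
  rw [Finsupp.single_apply] at hβ
  split_ifs at hβ with he
  · rwa [← he]
  · exact absurd rfl hβ

lemma norm_eY_le {α : List ℕ} (h : α ∈ G) : ‖eY α‖ ≤ 1 := by
  rw [norm_def, fn_eY h]
  exact nrm_single_le α

lemma weight_eq_sum (w : Fn) (A : Finset (List ℕ)) (h : ∀ β, β ∉ A → w β = 0) :
    w = ∑ α ∈ A, w α • Finsupp.single α (1 : ℝ) := by
  ext β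
  rw [Finsupp.finsetSum_apply]
  by_cases hβ : β ∈ A
  · rw [sum_eq_single β]
    · simp
    · intro α _ hne
      simp [hne]
    · intro h'
      exact absurd hβ h'
  · rw [h β hβ, sum_eq_zero]
    intro α hα
    have hne : α ≠ β := fun he => hβ (he ▸ hα)
    simp [hne]

/-- An element of `Y` supported in a finite set is a combination of unit vectors. -/
lemma y_eq_sum (y : Y) (A : Finset (List ℕ)) (h : ∀ β, β ∉ A → fn y β = 0) :
    y = ∑ α ∈ A, fn y α • eY α := by
  conv_lhs => rw [← proj_fn y, weight_eq_sum (fn y) A h, map_sum]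
  simp only [map_smul]
  rfl

/-- Restriction to an initial set, as a continuous linear map on `Y`. -/
noncomputable def resY (A : Set (List ℕ)) (hA : IsInit A) : Y →L[ℝ] Y :=
  LinearMap.mkContinuous
    { toFun := fun y => mkY (res A (fn y)) (fun β hβ => by
        by_cases h : β ∈ A
        · rw [res_apply_mem _ h] at hβ
          exact fn_mem y hβ
        · exact absurd (res_apply_not_mem _ h) hβ)
      map_add' := fun u v => fn_inj (by simp [res_add])
      map_smul' := fun c u => fn_inj (by simp [res_smul]) }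
    1
    (fun y => by
      rw [one_mul]
      exact nrm_res_le hA (fn y))

lemma fn_resY (A : Set (List ℕ)) (hA : IsInit A) (y : Y) : fn (resY A hA y) = res A (fn y) := rfl

lemma norm_resY_le (A : Set (List ℕ)) (hA : IsInit A) (y : Y) : ‖resY A hA y‖ ≤ ‖y‖ :=
  nrm_res_le hA (fn y)

lemma opNorm_resY_le (A : Set (List ℕ)) (hA : IsInit A) : ‖resY A hA‖ ≤ 1 :=
  LinearMap.mkContinuous_norm_le _ zero_le_one _

/-- The complement of the restriction, as an element of `Y`. -/
noncomputable def offY (A : Set (List ℕ)) (hA : IsInit A) (y : Y) : Y := y - resY A hA y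

lemma fn_offY (A : Set (List ℕ)) (hA : IsInit A) (y : Y) : fn (offY A hA y) = off A (fn y) := by
  unfold offY
  rw [fn_sub, fn_resY]
  ext β
  by_cases h : β ∈ A <;> simp [h]

lemma norm_offY_le (A : Set (List ℕ)) (hA : IsInit A) (y : Y) : ‖offY A hA y‖ ≤ ‖y‖ := by
  rw [norm_def, fn_offY]
  exact nrm_off_le hA (fn y)

lemma block_Y (A : Set (List ℕ)) (hA : IsInit A) (y : Y) :
    ‖resY A hA y‖ ^ 2 + ‖offY A hA y‖ ^ 2 ≤ ‖y‖ ^ 2 := by
  rw [norm_def, norm_def, norm_def, fn_offY, fn_resY]
  exact block_le hA (fn y)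

lemma resY_add_offY (A : Set (List ℕ)) (hA : IsInit A) (y : Y) :
    resY A hA y + offY A hA y = y := by
  unfold offY
  abel

/-- The coordinate functionals, elements of `X`. -/
noncomputable def coordX (α : List ℕ) : X :=
  LinearMap.mkContinuous ((Finsupp.lapply α).comp fnL) 1 (fun y => by
    rw [one_mul]
    change |fn y α| ≤ ‖y‖
    cases α with
    | nil => rw [fn_nil, abs_zero]; exact norm_nonneg _
    | cons m l => exact abs_coord_le_nrm _ m l)

@[simp] lemma coordX_apply (α : List ℕ) (y : Y) : coordX α y = fn y α := rfl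

lemma norm_coordX_le (α : List ℕ) : ‖coordX α‖ ≤ 1 :=
  LinearMap.mkContinuous_norm_le _ zero_le_one _

lemma coordX_eY {α : List ℕ} (h : α ∈ G) : coordX α (eY α) = 1 := by
  rw [coordX_apply, fn_eY h]
  simp

lemma one_le_norm_coordX {α : List ℕ} (h : α ∈ G) : 1 ≤ ‖coordX α‖ := by
  have h1 := (coordX α).le_opNorm (eY α)
  rw [coordX_eY h, Real.norm_eq_abs, abs_one] at h1
  have h2 : ‖coordX α‖ * ‖eY α‖ ≤ ‖coordX α‖ * 1 :=
    mul_le_mul_of_nonneg_left (norm_eY_le h) (norm_nonneg _)
  linarith

lemma norm_coordX {α : List ℕ} (h : α ∈ G) : ‖coordX α‖ = 1 :=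
  le_antisymm (norm_coordX_le α) (one_le_norm_coordX h)

/-- The summing functionals, elements of `X`. -/
noncomputable def segX (b : List ℕ) : X :=
  LinearMap.mkContinuous ((pot b).comp fnL) 1 (fun y => by
    rw [one_mul]
    exact abs_pot_le_nrm (fn y) b)

@[simp] lemma segX_apply (b : List ℕ) (y : Y) : segX b y = pot b (fn y) := rfl

lemma norm_segX_le (b : List ℕ) : ‖segX b‖ ≤ 1 :=
  LinearMap.mkContinuous_norm_le _ zero_le_one _

lemma segX_cons (m : ℕ) (b : List ℕ) : segX (m :: b) = segX b + coordX (m :: b) := by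
  ext y
  simp [add_comm]

/-- An almost norming vector of a functional. -/
lemma exists_near_norm (φ : X) {η : ℝ} (hη : 0 < η) : ∃ y : Y, ‖y‖ ≤ 1 ∧ ‖φ‖ - η ≤ φ y := by
  obtain ⟨y, hy, hy'⟩ := φ.exists_lt_apply_of_lt_opNorm (r := ‖φ‖ - η) (by linarith)
  rw [Real.norm_eq_abs] at hy'
  rcases le_total 0 (φ y) with h | h
  · refine ⟨y, hy.le, ?_⟩
    rw [abs_of_nonneg h] at hy'
    exact hy'.le
  · refine ⟨-y, by rw [norm_neg]; exact hy.le, ?_⟩
    rw [abs_of_nonpos h] at hy'
    rw [map_neg]
    exact hy'.le

/-- The finite initial set generated by a finite set. -/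
def initClosure (B : Finset (List ℕ)) : Finset (List ℕ) :=
  insert [] (B.biUnion fun l => l.tails.toFinset)

lemma initClosure_init (B : Finset (List ℕ)) : IsInit (initClosure B : Set (List ℕ)) := by
  constructor
  · simp [initClosure]
  · intro m l h
    simp only [initClosure, coe_insert, Set.mem_insert_iff, mem_coe,
      mem_biUnion, List.mem_toFinset, List.mem_tails, reduceCtorEq, false_or] at h ⊢
    obtain ⟨l0, hl0, h0⟩ := h
    exact Or.inr ⟨l0, hl0, (List.suffix_cons m l).trans h0⟩

lemma subset_initClosure (B : Finset (List ℕ)) : B ⊆ initClosure B := by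
  intro β hβ
  simp only [initClosure, mem_insert, mem_biUnion, List.mem_toFinset, List.mem_tails]
  exact Or.inr ⟨β, hβ, List.suffix_refl _⟩

/-- Cut of the tree by components, an initial set. -/
def lowComp (M : ℕ) : Set (List ℕ) := {l | l = [] ∨ comp l ≤ M}

lemma lowComp_init (M : ℕ) : IsInit (lowComp M) := by
  refine ⟨Or.inl rfl, ?_⟩
  rintro m l (h | h)
  · exact absurd h (List.cons_ne_nil m l)
  · by_cases hl : l = []
    · exact Or.inl hl
    · right
      rwa [comp_cons_of_ne hl] at h

lemma deep_lowComp {M : ℕ} {b : List ℕ} (hb : b ∉ lowComp M) : deep (lowComp M) b = [] := by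
  induction b with
  | nil => rfl
  | cons m l ih =>
    rw [deep_cons_of_not_mem hb]
    by_cases hl : l = []
    · rw [hl]
      rfl
    · apply ih
      rintro (h | h)
      · exact hl h
      · apply hb
        right
        rwa [comp_cons_of_ne hl]

/-- Orthogonality of weights living over different components. -/
lemma nrm_add_lowComp {M : ℕ} {u v : Fn} (hu : ∀ β, β ∉ lowComp M → u β = 0)
    (hv : ∀ β ∈ lowComp M, v β = 0) : nrm (u + v) ^ 2 ≤ nrm u ^ 2 + nrm v ^ 2 := by
  have hA := lowComp_init M
  refine nrm_sq_le fun S hS => ?_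
  have h1 := val_le_nrm_sq u hS
  have h2 := val_le_nrm_sq v hS
  refine le_trans (le_of_eq ?_) (add_le_add h1 h2)
  unfold val
  rw [← sum_add_distrib]
  refine sum_congr rfl fun σ hσ => ?_
  have hab := hS.1 σ hσ
  simp only [map_add]
  by_cases hb : σ.2 ∈ lowComp M
  · have e1 : pot σ.2 v = 0 := pot_eq_zero_of_off hA hv hb
    have e2 : pot σ.1 v = 0 := pot_eq_zero_of_off hA hv (hA.suffix hab hb)
    rw [e1, e2]
    ring
  · have e1 : pot σ.2 u = 0 := by
      rw [pot_of_supp hA hu, deep_lowComp hb]
      rfl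
    have e2 : pot σ.1 u = 0 := by
      by_cases h0 : σ.1 = []
      · rw [h0]
        rfl
      · have ha : σ.1 ∉ lowComp M := by
          rintro (h | h)
          · exact h0 h
          · apply hb
            right
            rwa [← comp_of_suffix hab h0]
        rw [pot_of_supp hA hu, deep_lowComp ha]
        rfl
    rw [e1, e2]
    ring

end Vale.Agent.Lib.P069
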